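import Vale.Agent.P242.H446.Stage1
import Vale.Agent.P242.H757.Stage2

/-! P242, package A-MAPS (helper446, helper757): the almost harmonic maps near a regular point. -/

set_option linter.all false

open MeasureTheory Filter Topology Set Metric

universe u

namespace Vale.Agent.P242.H446

/-- **A-MAPS.** -/
theorem blk_Maps : H71.Blk_Maps.{u} := by
  intro M _ _ _ _ _ m n K o A p h hreg R Q η ρ₁ hR hQ hη hρ₁
  obtain ⟨S, R₁, σ, hS, hR₁, hσ, hσ1, H⟩ := H757.stage2 h hR hQ hη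
  obtain ⟨ρ, hρ, u, uu, hPre⟩ := stage1 h hreg (by linarith : 0 ≤ S) (by linarith : 1 ≤ R₁) hσ hσ1 hρ₁
  exact ⟨ρ, hρ, u, uu, H ρ u uu hPre⟩

end Vale.Agent.P242.H446
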