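import Vale.Agent.P242.H225.LapSq
import Vale.Agent.P242.H990.Ph

/-! P242, package A-MAPS (helper446), part 2: the reverse Poincaré inequality and the square bound
of the Laplacian of the heat flow, with a constant subtracted. -/

set_option linter.all false

open MeasureTheory Filter Topology Set
open scoped ENNReal NNReal

universe u

namespace Vale.Agent.P242.H446

open Vale.Agent.P233 Vale.Agent.P242.H520 Vale.Agent.P242.H990

variable {M : Type u} [MetricSpace M] [MeasurableSpace M] {m : Measure M} {p : ℝ → M → M → ℝ}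

section basic

variable (hp : Ker0 m p) {s t T : ℝ} {x : M} {f : M →ₘ[m] ℝ}
include hp

/-- dominated convergence -/
theorem pt_tendsto (hs : 0 < s) (x : M) {F : ℕ → M → ℝ} {G : M → ℝ} {B : ℝ}
    (hm : ∀ k, AEStronglyMeasurable (F k) m) (hb : ∀ k, ∀ᵐ z ∂m, |F k z| ≤ B)
    (h : ∀ᵐ z ∂m, Tendsto (fun k => F k z) atTop (𝓝 (G z))) :
    Tendsto (fun k => pt m p s (F k) x) atTop (𝓝 (pt m p s G x)) := by
  unfold pt
  refine tendsto_integral_of_dominated_convergence (fun z => p s x z * B) (fun k => ?_)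
    ((hp.int s hs x).mul_const B) (fun k => ?_) ?_
  · exact (ph_meas hp hs x).mul (hm k)
  · filter_upwards [hb k] with z hz
    rw [norm_mul, Real.norm_eq_abs, Real.norm_eq_abs, abs_of_nonneg (hp.nonneg s hs x z)]
    exact mul_le_mul_of_nonneg_left hz (hp.nonneg s hs x z)
  · filter_upwards [h] with z hz
    exact hz.const_mul _

/-- the variance is at most the second moment about a constant -/
theorem var_le (hs : 0 < s) (x : M) {f : M → ℝ} (hft : MemLp f ∞ m) (c : ℝ) :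
    pt m p s (fun z => f z ^ 2) x - pt m p s f x ^ 2 ≤ pt m p s (fun z => (f z - c) ^ 2) x := by
  have h2 : MemLp (fun z => f z ^ 2) ∞ m := by
    have := MemLp.mul (p := ∞) (q := ∞) (r := ∞) hft hft
    refine this.ae_eq (Eventually.of_forall fun z => ?_)
    simp [sq]
  have i1 := pt_int_top hp hs x h2
  have i2 := pt_int_top hp hs x hft
  have i3 := hp.int s hs x
  have e : pt m p s (fun z => (f z - c) ^ 2) x
      = pt m p s (fun z => f z ^ 2) x - 2 * c * pt m p s f x + c ^ 2 := by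
    unfold pt
    have e1 : ∀ z, p s x z * (f z - c) ^ 2
        = (p s x z * f z ^ 2 - 2 * c * (p s x z * f z)) + c ^ 2 * p s x z := fun z => by ring
    have j1 : Integrable (fun z => p s x z * f z ^ 2 - 2 * c * (p s x z * f z)) m :=
      i1.sub (i2.const_mul _)
    have j2 : Integrable (fun z => c ^ 2 * p s x z) m := i3.const_mul _
    calc ∫ z, p s x z * (f z - c) ^ 2 ∂m
        = ∫ z, ((p s x z * f z ^ 2 - 2 * c * (p s x z * f z)) + c ^ 2 * p s x z) ∂m := by
          congr 1; ext z; exact e1 z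
      _ = ∫ z, (p s x z * f z ^ 2 - 2 * c * (p s x z * f z)) ∂m + ∫ z, c ^ 2 * p s x z ∂m :=
          integral_add j1 j2
      _ = (∫ z, p s x z * f z ^ 2 ∂m - ∫ z, 2 * c * (p s x z * f z) ∂m)
            + ∫ z, c ^ 2 * p s x z ∂m := by rw [integral_sub i1 (i2.const_mul _)]
      _ = _ := by
          rw [integral_const_mul, integral_const_mul, hp.mass s hs x, mul_one]
  rw [e]
  nlinarith [sq_nonneg (pt m p s f x - c)]

end basic

/-- reverse Poincaré inequality with a constant -/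
theorem grad_sq_const (hC : IsGamma (sob m)) {κ : ℝ} (hB : (sob m).BEi κ) (hp : Ker0 m p) {t : ℝ}
    (ht : 0 < t) {f : M →ₘ[m] ℝ} (hf : MemLp f 2 m) (hft : MemLp f ∞ m) (c : ℝ) :
    ∀ᵐ x ∂m, (sob m).Γ ((sob m).P t f) ((sob m).P t f) x
      ≤ Real.exp (2 * |κ| * t) / (2 * t) * pt m p t (fun z => (f z - c) ^ 2) x := by
  have hf22 : MemLp (f ^ 2 : M →ₘ[m] ℝ) 2 m := H881.sq_mem2 hf hft
  filter_upwards [H881.reverse_poincare hC hB ht hf hft, hp.rep t ht f hf, hp.rep t ht _ hf22]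
    with x h1 h2 h3
  have h4 : pt m p t (⇑(f ^ 2 : M →ₘ[m] ℝ)) x = pt m p t (fun z => f z ^ 2) x :=
    pt_congr hp (sq_ae f) t x
  rw [h2, h3, h4] at h1
  have h5 := h1.trans (var_le hp ht x hft c)
  have e : Real.exp (2 * |κ| * t) / (2 * t) * pt m p t (fun z => (f z - c) ^ 2) x
      = Real.exp (2 * |κ| * t) * pt m p t (fun z => (f z - c) ^ 2) x / (2 * t) := by ring
  rw [e, le_div_iff₀ (by positivity)]
  have h6 := mul_le_mul_of_nonneg_left h5 (Real.exp_pos (2 * |κ| * t)).le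
  have h7 : Real.exp (2 * |κ| * t) * Real.exp (-(2 * |κ| * t)) = 1 := by
    rw [← Real.exp_add]; simp
  calc (sob m).Γ ((sob m).P t f) ((sob m).P t f) x * (2 * t)
      = (Real.exp (2 * |κ| * t) * Real.exp (-(2 * |κ| * t))) *
          (2 * t * (sob m).Γ ((sob m).P t f) ((sob m).P t f) x) := by rw [h7]; ring
    _ = Real.exp (2 * |κ| * t) * (2 * t * Real.exp (-(2 * |κ| * t)) *
          (sob m).Γ ((sob m).P t f) ((sob m).P t f) x) := by ring
    _ ≤ _ := h6

/-- `(Δ P_T f)² ≤ (8 N e^{2|K|T}/T²) P_T ((f-c)²)` -/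
theorem lap_sq_const (hC : IsGamma (sob m)) [SigmaFinite m] {K N : ℝ} (hN : 0 < N)
    (hBE : (sob m).BE K N) (hp : Ker0 m p) {T : ℝ} (hT : 0 < T) {f : M →ₘ[m] ℝ}
    (hf : MemLp f 2 m) (hft : MemLp f ∞ m) (c : ℝ) :
    ∀ᵐ x ∂m, (sob m).lap ((sob m).P T f) x ^ 2
      ≤ 8 * N * Real.exp (2 * |K| * T) / T ^ 2 * pt m p T (fun z => (f z - c) ^ 2) x := by
  have hD := hC.toIsDir
  have hBi := hC.bei hN hBE
  obtain ⟨χ, Λ, hχT, hχ0, hχ1, hχlim, hlb, hl0, -⟩ := hC.exists_cut hBi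
  have hχ2 : ∀ k, MemLp (χ k) 2 m := fun k => hD.memLp _ (hC.test_A (hχT k)).1
  have hχt : ∀ k, MemLp (χ k) ∞ m := fun k => (hC.test_A (hχT k)).2
  have hlap : ∀ k, (sob m).IsLap (χ k) ((sob m).lap (χ k)) := fun k => hC.test_isLap (hχT k)
  set g : ℕ → M →ₘ[m] ℝ := fun k => f - c • χ k with hg
  have hg2 : ∀ k, MemLp (g k) 2 m := fun k => mem_sub hf (mem_smul _ (hχ2 k))
  have hgt : ∀ k, MemLp (g k) ∞ m := fun k => mem_sub hft (mem_smul _ (hχt k))
  have hg22 : ∀ k, MemLp ((g k) ^ 2 : M →ₘ[m] ℝ) 2 m := fun k => H881.sq_mem2 (hg2 k) (hgt k)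
  -- the Laplacian of `P_T (g k)`
  have e1 : ∀ k, (sob m).lap ((sob m).P T (g k))
      = (sob m).lap ((sob m).P T f) - c • (sob m).P T ((sob m).lap (χ k)) := by
    intro k
    have a1 : (sob m).P T (g k) = (sob m).P T f - c • (sob m).P T (χ k) := by
      rw [hg]
      show (sob m).P T (f - c • χ k) = _
      rw [hD.P_sub T hf (mem_smul _ (hχ2 k)), hD.P_smul T c (hχ2 k)]
    rw [a1]
    refine hD.lap_eq ?_
    have b1 := hD.P_isLap hT hf
    have b2 := hD.isLap_smul (-c) (hD.P_isLap_of T (hlap k))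
    have b3 := hD.isLap_add b1 b2
    have e2 : (sob m).P T f - c • (sob m).P T (χ k)
        = (sob m).P T f + (-c) • (sob m).P T (χ k) := by module
    have e3 : (sob m).lap ((sob m).P T f) - c • (sob m).P T ((sob m).lap (χ k))
        = (sob m).lap ((sob m).P T f) + (-c) • (sob m).P T ((sob m).lap (χ k)) := by module
    rw [e2, e3]
    exact b3
  have h1 : ∀ᵐ x ∂m, ∀ k, (sob m).lap ((sob m).P T (g k)) x ^ 2
      ≤ 8 * N * Real.exp (2 * |K| * T) / T ^ 2 * (sob m).P T ((g k) ^ 2) x :=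
    ae_all_iff.2 fun k => H225.lap_sq_le hC hN hBE hT (hg2 k) (hgt k)
  have h2 : ∀ᵐ x ∂m, ∀ k, (sob m).P T ((g k) ^ 2) x = pt m p T (⇑((g k) ^ 2 : M →ₘ[m] ℝ)) x :=
    ae_all_iff.2 fun k => hp.rep T hT _ (hg22 k)
  have h3 : ∀ᵐ x ∂m, ∀ k, (sob m).P T ((sob m).lap (χ k)) x = pt m p T ((sob m).lap (χ k)) x :=
    ae_all_iff.2 fun k => hp.rep T hT _ (hlap k).2.1
  have h4 : ∀ᵐ x ∂m, ∀ k, (sob m).lap ((sob m).P T (g k)) x
      = (sob m).lap ((sob m).P T f) x - c * (sob m).P T ((sob m).lap (χ k)) x := by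
    refine ae_all_iff.2 fun k => ?_
    filter_upwards [eq_iff_ae.1 (e1 k), sub_ae ((sob m).lap ((sob m).P T f))
      (c • (sob m).P T ((sob m).lap (χ k))), smul_ae ((sob m).P T ((sob m).lap (χ k))) c]
      with x a1 a2 a3
    rw [a1, a2, a3]
  obtain ⟨Bf, hBf⟩ := mem_top_iff.1 hft
  have h5 : ∀ x, Tendsto (fun k => pt m p T ((sob m).lap (χ k)) x) atTop (𝓝 0) := by
    intro x
    have := pt_tendsto hp hT x (F := fun k => ⇑((sob m).lap (χ k))) (G := fun _ => (0 : ℝ))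
      (fun k => AEEqFun.aestronglyMeasurable _) hlb hl0
    rwa [pt_const hp hT x 0] at this
  have h6 : ∀ x, Tendsto (fun k => pt m p T (⇑((g k) ^ 2 : M →ₘ[m] ℝ)) x) atTop
      (𝓝 (pt m p T (fun z => (f z - c) ^ 2) x)) := by
    intro x
    have hgae : ∀ k, ∀ᵐ z ∂m, ((g k) ^ 2 : M →ₘ[m] ℝ) z = (f z - c * χ k z) ^ 2 := by
      intro k
      filter_upwards [sq_ae (g k), sub_ae f (c • χ k), smul_ae (χ k) c] with z a1 a2 a3
      rw [a1]
      show ((f - c • χ k : M →ₘ[m] ℝ) z) ^ 2 = _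
      rw [a2, a3]
    refine pt_tendsto hp hT x (B := (Bf + |c|) ^ 2)
      (fun k => AEEqFun.aestronglyMeasurable _) (fun k => ?_) ?_
    · filter_upwards [hgae k, hBf, hχ1 k] with z a1 a2 a3
      rw [a1, abs_of_nonneg (sq_nonneg _), ← sq_abs]
      refine pow_le_pow_left₀ (abs_nonneg _) ?_ 2
      calc |f z - c * χ k z| ≤ |f z| + |c * χ k z| := abs_sub _ _
        _ = |f z| + |c| * |χ k z| := by rw [abs_mul]
        _ ≤ Bf + |c| * 1 := add_le_add a2 (mul_le_mul_of_nonneg_left a3 (abs_nonneg _))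
        _ = Bf + |c| := by ring
    · filter_upwards [ae_all_iff.2 hgae, hχlim] with z a1 a2
      have a3 : Tendsto (fun k => (f z - c * χ k z) ^ 2) atTop (𝓝 ((f z - c * 1) ^ 2)) :=
        ((a2.const_mul c).const_sub (f z)).pow 2
      rw [mul_one] at a3
      refine a3.congr fun k => ?_
      rw [a1 k]
  filter_upwards [h1, h2, h3, h4] with x a1 a2 a3 a4
  have l1 : Tendsto (fun k => (sob m).lap ((sob m).P T (g k)) x ^ 2) atTop
      (𝓝 ((sob m).lap ((sob m).P T f) x ^ 2)) := by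
    have b1 : Tendsto (fun k => ((sob m).lap ((sob m).P T f) x
        - c * pt m p T ((sob m).lap (χ k)) x) ^ 2) atTop
        (𝓝 (((sob m).lap ((sob m).P T f) x - c * 0) ^ 2)) :=
      (((h5 x).const_mul c).const_sub _).pow 2
    rw [mul_zero, sub_zero] at b1
    refine b1.congr fun k => ?_
    rw [a4 k, a3 k]
  have l2 : Tendsto (fun k => 8 * N * Real.exp (2 * |K| * T) / T ^ 2 *
      (sob m).P T ((g k) ^ 2) x) atTop
      (𝓝 (8 * N * Real.exp (2 * |K| * T) / T ^ 2 * pt m p T (fun z => (f z - c) ^ 2) x)) := by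
    refine ((h6 x).const_mul _).congr fun k => ?_
    rw [a2 k]
  exact le_of_tendsto_of_tendsto' l1 l2 a1

end Vale.Agent.P242.H446
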