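import Vale.Agent.P242.H446.Const
import Vale.Agent.P242.H542.Gam

/-! P242, package A-MAPS (helper446), part 4: averages against the heat kernel: splitting into a
ball and its complement, the semigroup law for bounded functions, centre families. -/

set_option linter.all false

open MeasureTheory Filter Topology Set Metric
open scoped ENNReal NNReal

universe u

namespace Vale.Agent.P242.H446

open Vale.Agent.P233 Vale.Agent.P242.H520 Vale.Agent.P242.H990

variable {M : Type u} [MetricSpace M] [MeasurableSpace M] {m : Measure M} {p : ℝ → M → M → ℝ}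

/-- Gaussian tails -/
def TailB (m : Measure M) (p : ℝ → M → M → ℝ) (Ct : ℝ) : Prop :=
  ∀ s, 0 < s → s ≤ 1 → ∀ (x : M) (R : ℝ), 0 ≤ R →
    ∫ w in {w | R ≤ dist x w}, p s x w ∂m ≤ Ct * Real.exp (-(R ^ 2 / (32 * s)))

/-- first moments -/
def MomB (m : Measure M) (p : ℝ → M → M → ℝ) (Cm : ℝ) : Prop :=
  ∀ s, 0 < s → s ≤ 1 → ∀ x : M, Integrable (fun w => p s x w * dist x w) m ∧
    ∫ w, p s x w * dist x w ∂m ≤ Cm * √s

section basic

variable (hp : Ker0 m p) {s t T : ℝ} {x : M} {f : M →ₘ[m] ℝ}
include hp

/-- splitting of an average -/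
theorem pt_split [OpensMeasurableSpace M] (hs : 0 < s) (x : M) {F : M → ℝ}
    (hi : Integrable (fun z => p s x z * F z) m) {a b r τ : ℝ} (hb : 0 ≤ b)
    (h1 : ∀ᵐ z ∂m, dist x z < r → F z ≤ a) (h2 : ∀ᵐ z ∂m, F z ≤ a + b)
    (hτ : ∫ w in {w | r ≤ dist x w}, p s x w ∂m ≤ τ) : pt m p s F x ≤ a + b * τ := by
  have hE : MeasurableSet {z | r ≤ dist x z} :=
    measurableSet_le measurable_const (continuous_const.dist continuous_id).measurable
  have i1 := hp.int s hs x
  have i2 : Integrable ({z | r ≤ dist x z}.indicator (p s x)) m := i1.indicator hE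
  have e : a + b * ∫ w in {w | r ≤ dist x w}, p s x w ∂m
      = ∫ z, (a * p s x z + b * {z | r ≤ dist x z}.indicator (p s x) z) ∂m := by
    rw [integral_add (i1.const_mul a) (i2.const_mul b), integral_const_mul, integral_const_mul,
      hp.mass s hs x, mul_one, integral_indicator hE]
  calc pt m p s F x ≤ ∫ z, (a * p s x z + b * {z | r ≤ dist x z}.indicator (p s x) z) ∂m := by
        refine integral_mono_ae hi ((i1.const_mul a).add (i2.const_mul b)) ?_
        filter_upwards [h1, h2] with z z1 z2
        have h0 := hp.nonneg s hs x z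
        by_cases hz : z ∈ {z | r ≤ dist x z}
        · show p s x z * F z ≤ a * p s x z + b * {z | r ≤ dist x z}.indicator (p s x) z
          rw [indicator_of_mem hz]
          nlinarith
        · show p s x z * F z ≤ a * p s x z + b * {z | r ≤ dist x z}.indicator (p s x) z
          rw [indicator_of_notMem hz]
          have : dist x z < r := not_le.1 hz
          nlinarith [z1 this]
    _ = a + b * ∫ w in {w | r ≤ dist x w}, p s x w ∂m := e.symm
    _ ≤ a + b * τ := by
        have := mul_le_mul_of_nonneg_left hτ hb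
        linarith

theorem pt_add (hs : 0 < s) (x : M) {F G : M → ℝ} (hF : Integrable (fun z => p s x z * F z) m)
    (hG : Integrable (fun z => p s x z * G z) m) :
    pt m p s (fun z => F z + G z) x = pt m p s F x + pt m p s G x := by
  unfold pt
  rw [← integral_add hF hG]
  congr 1; ext z; ring

theorem pt_const_mul (s : ℝ) (x : M) (c : ℝ) (F : M → ℝ) :
    pt m p s (fun z => c * F z) x = c * pt m p s F x := by
  unfold pt
  rw [← integral_const_mul]
  congr 1; ext z; ring

end basic

section semi

variable [BorelSpace M] (hC : IsDir (sob m)) (hp : Ker0 m p)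
  (hfin : ∀ (x : M) (r : ℝ), m (ball x r) < ∞) {s t : ℝ}
include hC hp hfin

/-- a bounded function is the pointwise limit of square integrable ones -/
theorem exists_cut_off (o : M) {F : M → ℝ} (hF : AEStronglyMeasurable F m) {B : ℝ}
    (hb : ∀ᵐ z ∂m, |F z| ≤ B) :
    ∃ G : ℕ → M → ℝ, (∀ k, MemLp (G k) 2 m) ∧ (∀ k, ∀ᵐ z ∂m, |G k z| ≤ B) ∧
      ∀ z, Tendsto (fun k => G k z) atTop (𝓝 (F z)) := by
  classical
  refine ⟨fun k => (ball o (k : ℝ)).indicator F, fun k => ?_, fun k => ?_, fun z => ?_⟩
  · rw [memLp_indicator_iff_restrict isOpen_ball.measurableSet]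
    haveI : IsFiniteMeasure (m.restrict (ball o (k : ℝ))) :=
      ⟨by rw [Measure.restrict_apply_univ]; exact hfin o k⟩
    exact MemLp.of_bound hF.restrict B (by
      filter_upwards [ae_restrict_of_ae hb] with z hz using hz)
  · filter_upwards [hb] with z hz
    by_cases h : z ∈ ball o (k : ℝ)
    · simp only [indicator_of_mem h]; exact hz
    · simp only [indicator_of_notMem h, abs_zero]
      exact (abs_nonneg _).trans hz
  · refine tendsto_const_nhds.congr' ?_
    obtain ⟨N, hN⟩ := exists_nat_gt (dist z o)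
    filter_upwards [eventually_ge_atTop N] with k hk
    have : z ∈ ball o (k : ℝ) := by
      rw [mem_ball]
      exact hN.trans_le (by exact_mod_cast hk)
    rw [indicator_of_mem this]

/-- measurability of the heat flow of a bounded function -/
theorem pt_meas (ht : 0 < t) {F : M → ℝ} (hF : AEStronglyMeasurable F m) {B : ℝ}
    (hb : ∀ᵐ z ∂m, |F z| ≤ B) : StronglyMeasurable (pt m p t F) := by
  rcases isEmpty_or_nonempty M with he | ⟨⟨o⟩⟩
  · exact StronglyMeasurable.of_discrete
  obtain ⟨G, h1, h2, h3⟩ := exists_cut_off hC hp hfin o hF hb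
  refine stronglyMeasurable_of_tendsto (f := fun k => pt m p t (G k)) atTop
    (fun k => (hp.contf t ht _ (h1 k)).stronglyMeasurable) ?_
  rw [tendsto_pi_nhds]
  intro x
  exact pt_tendsto hp ht x (fun k => (h1 k).1) h2 (Eventually.of_forall h3)

/-- the semigroup law for bounded functions -/
theorem pt_pt_bdd (ht : 0 < t) (hs : 0 < s) (x : M) {F : M → ℝ} (hF : AEStronglyMeasurable F m)
    {B : ℝ} (hb : ∀ᵐ z ∂m, |F z| ≤ B) :
    pt m p s (pt m p t F) x = pt m p (s + t) F x := by
  obtain ⟨G, h1, h2, h3⟩ := exists_cut_off hC hp hfin x hF hb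
  have l1 : Tendsto (fun k => pt m p s (pt m p t (G k)) x) atTop
      (𝓝 (pt m p s (pt m p t F) x)) := by
    refine pt_tendsto hp hs x (B := B) (fun k => (hp.contf t ht _ (h1 k)).aestronglyMeasurable)
      (fun k => Eventually.of_forall fun z => pt_bdd hp ht z (h1 k).1 (h2 k)) ?_
    exact Eventually.of_forall fun z =>
      pt_tendsto hp ht z (fun k => (h1 k).1) h2 (Eventually.of_forall h3)
  have l2 : Tendsto (fun k => pt m p (s + t) (G k) x) atTop (𝓝 (pt m p (s + t) F x)) :=
    pt_tendsto hp (by linarith) x (fun k => (h1 k).1) h2 (Eventually.of_forall h3)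
  have e : ∀ k, pt m p s (pt m p t (G k)) x = pt m p (s + t) (G k) x := fun k =>
    pt_pt hC hp ht hs x (h1 k)
  simp_rw [e] at l1
  exact tendsto_nhds_unique l1 l2

end semi

section cen

variable [BorelSpace M] {n : ℕ} {o : M} {A : ℝ}

/-- the kernel is a centre family -/
theorem cen (hC : IsGamma (sob m)) (hp : Ker0 m p) (hk : KB n o A p) (x : M) :
    Cen (sob m) (fun s => ph m p s x) where
  mem2 s hs := ph_mem2 hp hs x
  top s hs := ph_top hC hp hk hs x
  nonneg s hs := ph_nonneg hp hs x
  mem1 s hs := ph_mem1 hp hs x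
  mass s hs := I_ph hp hs x
  semi s t hs ht := P_ph hC.toIsDir hp ht hs x

end cen

end Vale.Agent.P242.H446
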