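import Vale.Agent.P242.H446.Rad
import Vale.Agent.P242.H446.Loc

/-! P242, package A-MAPS (helper446), part 5: bounds of `Δ P_t F`, `∇Δ P_t F` and `∇ P_t F`. -/

set_option linter.all false

open MeasureTheory Filter Topology Set Metric
open scoped ENNReal NNReal InnerProductSpace

universe u

namespace Vale.Agent.P242.H446

open Vale.Agent.P233 Vale.Agent.P233.RA Vale.Agent.P242.H520 Vale.Agent.P242.H990

variable {M : Type u} [MetricSpace M] [CompleteSpace M] [SecondCountableTopology M]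
  [MeasurableSpace M] [BorelSpace M] {m : Measure M} {n : ℕ} {K : ℝ} {θ : M → ℝ}
  {p : ℝ → M → M → ℝ}

theorem sigmaFinite_of_fin (hfin : ∀ (x : M) (r : ℝ), m (ball x r) < ∞) : SigmaFinite m := by
  rcases isEmpty_or_nonempty M with he | ⟨⟨o⟩⟩
  · have : m = 0 := Measure.eq_zero_of_isEmpty m
    rw [this]; infer_instance
  · refine ⟨⟨⟨fun n => ball o n, fun n => trivial, fun n => hfin _ _, ?_⟩⟩⟩
    exact iUnion_ball_nat o

section
variable (h : N2.RA.NSp m n K θ) (hBE : (sob m).BE K n) (hp : Ker0 m p)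
include h hBE hp

/-- **Lemma A.** averages of `(Δ P_t F)²` -/
theorem lap_avg {r t s : ℝ} (hr : 0 < r) (ht : 0 < t) (hs : 0 < s) {q₁ q₂ x : M} {g τ R' : ℝ}
    (hF : ∀ z, dist x z < R' → |fr r q₁ z + fr r q₂ z - 2 * r| ≤ g)
    (hτ : ∫ w in {w | R' ≤ dist x w}, p (s + t) x w ∂m ≤ τ) :
    pt m p s (fun z => (sob m).lap ((sob m).P t (Fr m r q₁)) z ^ 2) x ≤
      2 * ((n + |K| * r ^ 2) / r) ^ 2 +
        2 * (8 * n * Real.exp (2 * |K| * t) / t ^ 2) * (g ^ 2 + (2 * r) ^ 2 * τ) := by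
  haveI := sigmaFinite_of_fin h.fin
  have hD := h.isDir
  have hC := h.isGamma
  have hn : (0 : ℝ) < n := by exact_mod_cast h.n_pos
  have hA₁ := Fr_A h hr q₁
  have hA₂ := Fr_A h hr q₂
  have h21 := hD.memLp _ hA₁.1
  have h22 := hD.memLp _ hA₂.1
  set c : ℝ := 8 * n * Real.exp (2 * |K| * t) / t ^ 2 with hc
  have hc0 : 0 ≤ c := by positivity
  set a : ℝ := (n + |K| * r ^ 2) / r with ha
  have ha0 : 0 ≤ a := by positivity
  set S : M →ₘ[m] ℝ := Fr m r q₁ + Fr m r q₂ with hS
  have hS2 : MemLp S 2 m := mem_add h21 h22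
  have hSt : MemLp S ∞ m := mem_add hA₁.2 hA₂.2
  have hTI := H715.P_testI_pos hC hn hBE ht h21 hA₁.2
  -- the function `G²`
  set G : M → ℝ := fun z => (S z - 2 * r) ^ 2 with hG
  have hSae : ∀ᵐ z ∂m, S z = fr r q₁ z + fr r q₂ z := by
    filter_upwards [add_ae (Fr m r q₁) (Fr m r q₂), Fr_ae (m := m) hr q₁, Fr_ae (m := m) hr q₂]
      with z h1 h2 h3
    show (Fr m r q₁ + Fr m r q₂ : M →ₘ[m] ℝ) z = _
    rw [h1, h2, h3]
  have hGm : AEStronglyMeasurable G m := by
    have : AEStronglyMeasurable (fun z => S z - 2 * r) m :=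
      S.aestronglyMeasurable.sub aestronglyMeasurable_const
    exact this.pow 2
  have hGb : ∀ᵐ z ∂m, |G z| ≤ (2 * r) ^ 2 := by
    filter_upwards [hSae] with z hz
    have h1 := fr_nonneg hr q₁ z
    have h2 := fr_le hr q₁ z
    have h3 := fr_nonneg hr q₂ z
    have h4 := fr_le hr q₂ z
    simp only [hG]
    rw [abs_of_nonneg (sq_nonneg _), hz, ← sq_abs]
    refine pow_le_pow_left₀ (abs_nonneg _) (abs_le.2 ⟨by linarith, by linarith⟩) 2
  have key : ∀ᵐ z ∂m, (sob m).lap ((sob m).P t (Fr m r q₁)) z ^ 2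
      ≤ 2 * a ^ 2 + 2 * c * pt m p t G z := by
    filter_upwards [lap_sq_const hC hn hBE hp ht hS2 hSt (2 * r), lap_Fr_ge h hr q₁ ht,
      lap_Fr_ge h hr q₂ ht, eq_iff_ae.1 (hD.lap_P_add ht h21 h22),
      add_ae ((sob m).lap ((sob m).P t (Fr m r q₁))) ((sob m).lap ((sob m).P t (Fr m r q₂)))]
      with z h1 h2 h3 h4 h5
    rw [h5] at h4
    set X := (sob m).lap ((sob m).P t (Fr m r q₁)) z with hX
    set Y := (sob m).lap ((sob m).P t (Fr m r q₂)) z with hY
    set Z := (sob m).lap ((sob m).P t (Fr m r q₁ + Fr m r q₂)) z with hZ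
    have h6 : |X| ≤ a + |Z| := by
      rw [abs_le]
      have := abs_nonneg Z
      have := le_abs_self Z
      constructor <;> linarith
    have h7 : X ^ 2 ≤ (a + |Z|) ^ 2 := by
      rw [← sq_abs X]
      exact pow_le_pow_left₀ (abs_nonneg _) h6 2
    have h8 : (a + |Z|) ^ 2 ≤ 2 * a ^ 2 + 2 * Z ^ 2 := by
      rw [← sq_abs Z]
      nlinarith [sq_nonneg (a - |Z|)]
    have h9 : Z ^ 2 ≤ c * pt m p t G z := h1
    nlinarith
  have hlt : MemLp (fun z => (sob m).lap ((sob m).P t (Fr m r q₁)) z ^ 2) ∞ m := by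
    have : MemLp ((sob m).lap ((sob m).P t (Fr m r q₁)) *
        (sob m).lap ((sob m).P t (Fr m r q₁)) : M →ₘ[m] ℝ) ∞ m := mem_mul_top hTI.2 hTI.2
    refine (memLp_congr_ae ?_).1 this
    filter_upwards [mul_ae ((sob m).lap ((sob m).P t (Fr m r q₁)))
      ((sob m).lap ((sob m).P t (Fr m r q₁)))] with z hz
    rw [hz, sq]
  have hPG : ∀ z, |pt m p t G z| ≤ (2 * r) ^ 2 := fun z => pt_bdd hp ht z hGm hGb
  have hPGt : MemLp (pt m p t G) ∞ m :=
    memLp_top_of_bound (pt_meas hD hp h.fin ht hGm hGb).aestronglyMeasurable ((2 * r) ^ 2)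
      (Eventually.of_forall fun z => by rw [Real.norm_eq_abs]; exact hPG z)
  have i1 := pt_int_top hp hs x hPGt
  have st : 0 < s + t := by linarith
  calc pt m p s (fun z => (sob m).lap ((sob m).P t (Fr m r q₁)) z ^ 2) x
      ≤ pt m p s (fun z => 2 * a ^ 2 + 2 * c * pt m p t G z) x := by
        refine pt_mono hp hs x (pt_int_top hp hs x hlt) ?_ key
        have : Integrable (fun z => p s x z * (2 * a ^ 2) + 2 * c * (p s x z * pt m p t G z)) m :=
          ((hp.int s hs x).mul_const _).add (i1.const_mul _)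
        refine this.congr (Eventually.of_forall fun z => ?_)
        simp only
        ring
    _ = 2 * a ^ 2 + 2 * c * pt m p s (pt m p t G) x := by
        rw [pt_add hp hs x ((hp.int s hs x).mul_const _), pt_const hp hs, pt_const_mul hp]
        refine (i1.const_mul (2 * c)).congr (Eventually.of_forall fun z => ?_)
        simp only
        ring
    _ = 2 * a ^ 2 + 2 * c * pt m p (s + t) G x := by
        rw [pt_pt_bdd hD hp h.fin ht hs x hGm hGb]
    _ ≤ 2 * a ^ 2 + 2 * c * (g ^ 2 + (2 * r) ^ 2 * τ) := by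
        have h1 : pt m p (s + t) G x ≤ g ^ 2 + (2 * r) ^ 2 * τ := by
          have hGt : MemLp G ∞ m := memLp_top_of_bound hGm _ hGb
          refine pt_split hp st x (pt_int_top hp st x hGt) (by positivity) ?_ ?_ hτ
          · filter_upwards [hSae] with z hz hd
            simp only [hG]
            rw [hz, ← sq_abs]
            exact pow_le_pow_left₀ (abs_nonneg _) (hF z hd) 2
          · filter_upwards [hGb] with z hz
            have := (le_abs_self _).trans hz
            nlinarith [sq_nonneg g]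
        have h2 : 0 ≤ 2 * c := by positivity
        nlinarith [mul_le_mul_of_nonneg_left h1 h2]

omit hBE in
/-- **Lemma B.** averages of `|∇ P_t H|²` -/
theorem grad_avg (hBi : (sob m).BEi K) {t s : ℝ} (ht : 0 < t) (hs : 0 < s) {H : M →ₘ[m] ℝ}
    (h2 : MemLp H 2 m) (htop : MemLp H ∞ m) (x : M) (c : ℝ) :
    pt m p s ((sob m).Γ ((sob m).P t H) ((sob m).P t H)) x ≤
      Real.exp (2 * |K| * t) / (2 * t) * pt m p (s + t) (fun z => (H z - c) ^ 2) x := by
  have hD := h.isDir
  have hC := h.isGamma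
  set G : M → ℝ := fun z => (H z - c) ^ 2 with hG
  obtain ⟨B, hB⟩ := mem_top_iff.1 htop
  have hGm : AEStronglyMeasurable G m := by
    have : AEStronglyMeasurable (fun z => H z - c) m :=
      H.aestronglyMeasurable.sub aestronglyMeasurable_const
    exact this.pow 2
  have hGb : ∀ᵐ z ∂m, |G z| ≤ (B + |c|) ^ 2 := by
    filter_upwards [hB] with z hz
    simp only [hG]
    rw [abs_of_nonneg (sq_nonneg _), ← sq_abs]
    refine pow_le_pow_left₀ (abs_nonneg _) ?_ 2
    exact (abs_sub _ _).trans (by linarith)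
  have hPG : ∀ z, |pt m p t G z| ≤ (B + |c|) ^ 2 := fun z => pt_bdd hp ht z hGm hGb
  have hPGt : MemLp (pt m p t G) ∞ m :=
    memLp_top_of_bound (pt_meas hD hp h.fin ht hGm hGb).aestronglyMeasurable ((B + |c|) ^ 2)
      (Eventually.of_forall fun z => by rw [Real.norm_eq_abs]; exact hPG z)
  have i1 := pt_int_top hp hs x hPGt
  have hΓt : MemLp ((sob m).Γ ((sob m).P t H) ((sob m).P t H)) ∞ m :=
    IsGamma.P_Γ_top hC hBi ht h2 htop
  set k : ℝ := Real.exp (2 * |K| * t) / (2 * t) with hk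
  calc pt m p s ((sob m).Γ ((sob m).P t H) ((sob m).P t H)) x
      ≤ pt m p s (fun z => k * pt m p t G z) x := by
        refine pt_mono hp hs x (pt_int_top hp hs x hΓt) ?_
          (grad_sq_const hC hBi hp ht h2 htop c)
        refine (i1.const_mul k).congr (Eventually.of_forall fun z => ?_)
        simp only
        ring
    _ = k * pt m p (s + t) G x := by
        rw [pt_const_mul hp, pt_pt_bdd hD hp h.fin ht hs x hGm hGb]

/-- averages of `|∇Δ P_t F|²` -/
theorem grad_lap_avg {r t s : ℝ} (hr : 0 < r) (ht : 0 < t) (hs : 0 < s) (q x : M) {D : ℝ}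
    (hD : pt m p (s + t / 2) (fun z => (sob m).lap ((sob m).P (t / 2) (Fr m r q)) z ^ 2) x ≤ D) :
    pt m p s ((sob m).Γ ((sob m).lap ((sob m).P t (Fr m r q)))
        ((sob m).lap ((sob m).P t (Fr m r q)))) x ≤ Real.exp (|K| * t) / t * D := by
  haveI := sigmaFinite_of_fin h.fin
  have hn : (0 : ℝ) < n := by exact_mod_cast h.n_pos
  have hC := h.isGamma
  have hDD := h.isDir
  have hBi := hC.bei hn hBE
  have ht2 : 0 < t / 2 := by linarith
  have hA := Fr_A h hr q
  have h2 := hDD.memLp _ hA.1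
  have hTI := H715.P_testI_pos hC hn hBE ht2 h2 hA.2
  have e1 : (sob m).lap ((sob m).P t (Fr m r q))
      = (sob m).P (t / 2) ((sob m).lap ((sob m).P (t / 2) (Fr m r q))) := by
    rw [← hDD.P_lap_add ht2.le ht2 h2, add_halves]
  have h3 := grad_avg h hp hBi ht2 hs (hDD.P_isLap ht2 h2).2.1 hTI.2 x 0
  rw [← e1] at h3
  refine h3.trans ?_
  have e2 : Real.exp (2 * |K| * (t / 2)) / (2 * (t / 2)) = Real.exp (|K| * t) / t := by
    congr 1
    · congr 1; ring
    · ring
  rw [e2]
  refine mul_le_mul_of_nonneg_left ?_ (by positivity)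
  simpa only [sub_zero] using hD

end

end Vale.Agent.P242.H446
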