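import Vale.Agent.P242.H446.Est

/-! P242, package A-MAPS (helper446), part 6: upper gradient bound, `|P_t F - F| ≤ C √t`, the
almost sub-mean value property of `|∇u|²`, points with large `P_S |∇u|²`. -/

set_option linter.all false

open MeasureTheory Filter Topology Set Metric
open scoped ENNReal NNReal InnerProductSpace

universe u

namespace Vale.Agent.P242.H446

open Vale.Agent.P233 Vale.Agent.P233.RA Vale.Agent.P242.H520 Vale.Agent.P242.H990

variable {M : Type u} [MetricSpace M] [CompleteSpace M] [SecondCountableTopology M]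
  [MeasurableSpace M] [BorelSpace M] {m : Measure M} {n : ℕ} {K : ℝ} {θ : M → ℝ}
  {p : ℝ → M → M → ℝ}

/-- `Γ(a+b) ≤ (1+β) Γ(a) + (1+β⁻¹) Γ(b)` -/
theorem Γ_add_le {C : Calc m} (hD : IsDir C) {a b : M →ₘ[m] ℝ} (ha : a ∈ C.W) (hb : b ∈ C.W)
    {β : ℝ} (hβ : 0 < β) :
    ∀ᵐ z ∂m, C.Γ (a + b) (a + b) z ≤ (1 + β) * C.Γ a a z + (1 + β⁻¹) * C.Γ b b z := by
  have e := hD.Γ_expand 1 ha hb
  rw [one_smul] at e
  filter_upwards [eq_iff_ae.1 e, add_ae (C.Γ a a + (2 * 1 : ℝ) • C.Γ a b) ((1 ^ 2 : ℝ) • C.Γ b b),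
    add_ae (C.Γ a a) ((2 * 1 : ℝ) • C.Γ a b), smul_ae (C.Γ a b) (2 * 1 : ℝ),
    smul_ae (C.Γ b b) (1 ^ 2 : ℝ), hD.Γ_cs_ae ha hb, hD.Γ_nonneg_ae ha, hD.Γ_nonneg_ae hb]
    with z h1 h2 h3 h4 h5 h6 h7 h8
  rw [h1, h2, h3, h4, h5]
  have h9 : 2 * C.Γ a b z ≤ β * C.Γ a a z + β⁻¹ * C.Γ b b z := by
    set A := C.Γ a a z
    set B := C.Γ b b z
    set X := C.Γ a b z
    have h10 : 0 ≤ β * A := mul_nonneg hβ.le h7
    have h11 : 0 ≤ β⁻¹ * B := mul_nonneg (inv_pos.2 hβ).le h8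
    have h12 : (2 * X) ^ 2 ≤ (β * A + β⁻¹ * B) ^ 2 := by
      have e2 : β * A * (β⁻¹ * B) = A * B := by field_simp
      nlinarith [sq_nonneg (β * A - β⁻¹ * B)]
    exact (abs_le_of_sq_le_sq' h12 (by linarith)).2
  linarith

section
variable (h : N2.RA.NSp m n K θ) (hBE : (sob m).BE K n) (hp : Ker0 m p)
include h hBE hp

/-- **Lemma C.** upper gradient bound -/
theorem grad_up {r t : ℝ} (hr : 0 < r) (ht : 0 < t) (c : Fin n → ℝ) (q : Fin n → M) (q₀ : M)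
    {B : Set M} {R' g b c' ℓ τ β : ℝ} (hβ : 0 < β)
    (hF : ∀ z ∈ B, ∀ w, dist z w < R' → |∑ i, c i * fr r (q i) w - fr r q₀ w - c'| ≤ g)
    (hFb : ∀ w, |∑ i, c i * fr r (q i) w - fr r q₀ w - c'| ≤ b)
    (hloc : ∀ z ∈ B, ∀ w, dist z w < R' → dist q₀ w / r ≤ ℓ)
    (hτ : ∀ z ∈ B, ∫ w in {w | R' ≤ dist z w}, p t z w ∂m ≤ τ) :
    ∀ᵐ z ∂m, z ∈ B →
      (sob m).Γ ((sob m).P t (∑ i, c i • Fr m r (q i))) ((sob m).P t (∑ i, c i • Fr m r (q i))) z ≤
        (1 + β) * (Real.exp (2 * |K| * t) * (ℓ ^ 2 + 3 * τ)) +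
          (1 + β⁻¹) * (Real.exp (2 * |K| * t) / (2 * t) * (g ^ 2 + b ^ 2 * τ)) := by
  haveI := sigmaFinite_of_fin h.fin
  have hn : (0 : ℝ) < n := by exact_mod_cast h.n_pos
  have hC := h.isGamma
  have hD := h.isDir
  have hBi := hC.bei hn hBE
  have hA : ∀ i, Fr m r (q i) ∈ (sob m).A := fun i => Fr_A h hr (q i)
  have hA₀ := Fr_A h hr q₀
  -- the sum
  have hsumA : ∀ s : Finset (Fin n), ∑ i ∈ s, c i • Fr m r (q i) ∈ (sob m).A := by
    classical
    intro s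
    induction s using Finset.induction_on with
    | empty =>
      rw [Finset.sum_empty]
      exact ⟨hD.zero_mem, mem_zero⟩
    | insert i s hi ih =>
      rw [Finset.sum_insert hi]
      exact ⟨hD.add_mem _ (hD.smul_mem _ _ (hA i).1) _ ih.1,
        mem_add (mem_smul _ (hA i).2) ih.2⟩
  set Fc : M →ₘ[m] ℝ := ∑ i, c i • Fr m r (q i) with hFc
  have hFcA : Fc ∈ (sob m).A := hsumA Finset.univ
  have hFcae : ∀ᵐ z ∂m, Fc z = ∑ i, c i * fr r (q i) z := by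
    have h1 : ∀ s : Finset (Fin n), ∀ᵐ z ∂m, (∑ i ∈ s, c i • Fr m r (q i) : M →ₘ[m] ℝ) z
        = ∑ i ∈ s, c i * fr r (q i) z := by
      classical
      intro s
      induction s using Finset.induction_on with
      | empty =>
        filter_upwards [zero_ae (M := M) (m := m)] with z hz
        simpa using hz
      | insert i s hi ih =>
        rw [Finset.sum_insert hi]
        filter_upwards [ih, add_ae (c i • Fr m r (q i)) (∑ i ∈ s, c i • Fr m r (q i)),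
          smul_ae (Fr m r (q i)) (c i), Fr_ae (m := m) hr (q i)] with z a1 a2 a3 a4
        rw [a2, a3, a4, a1, Finset.sum_insert hi]
    exact h1 Finset.univ
  set D : M →ₘ[m] ℝ := Fc - Fr m r q₀ with hDdef
  have hD2 : MemLp D 2 m := mem_sub (hD.memLp _ hFcA.1) (hD.memLp _ hA₀.1)
  have hDt : MemLp D ∞ m := mem_sub hFcA.2 hA₀.2
  have hDae : ∀ᵐ z ∂m, D z = ∑ i, c i * fr r (q i) z - fr r q₀ z := by
    filter_upwards [hFcae, sub_ae Fc (Fr m r q₀), Fr_ae (m := m) hr q₀] with z a1 a2 a3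
    show (Fc - Fr m r q₀ : M →ₘ[m] ℝ) z = _
    rw [a2, a1, a3]
  have e1 : (sob m).P t Fc = (sob m).P t (Fr m r q₀) + (sob m).P t D := by
    rw [← hD.P_add t (hD.memLp _ hA₀.1) hD2]
    congr 1
    simp only [hDdef]; abel
  have hΓ2 : MemLp ((sob m).Γ (Fr m r q₀) (Fr m r q₀)) 2 m :=
    hD.Γ_mem2 hA₀.1 (Γ_Fr_top h hr q₀) hA₀.1
  have hW1 := hD.P_mem ht (hD.memLp _ hA₀.1)
  have hW2 := hD.P_mem ht hD2
  rw [e1]
  filter_upwards [Γ_add_le hD hW1 hW2 hβ,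
    le_iff_ae.1 (IsGamma.P_Γ_le_P hC hBi ht.le hA₀.1 (Γ_Fr_top h hr q₀)),
    smul_ae ((sob m).P t ((sob m).Γ (Fr m r q₀) (Fr m r q₀))) (Real.exp (-(2 * K * t))),
    hp.rep t ht _ hΓ2, grad_sq_const hC hBi hp ht hD2 hDt c']
    with z a1 a2 a3 a4 a5 hz
  refine a1.trans ?_
  have b1 : (sob m).Γ ((sob m).P t (Fr m r q₀)) ((sob m).P t (Fr m r q₀)) z
      ≤ Real.exp (2 * |K| * t) * (ℓ ^ 2 + 3 * τ) := by
    rw [a3, a4] at a2
    have c0 : 0 ≤ pt m p t ((sob m).Γ (Fr m r q₀) (Fr m r q₀)) z :=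
      pt_nonneg hp ht z (hD.Γ_nonneg_ae hA₀.1)
    have c1 : pt m p t ((sob m).Γ (Fr m r q₀) (Fr m r q₀)) z ≤ ℓ ^ 2 + 3 * τ := by
      refine pt_split hp ht z (pt_int hp ht z hΓ2) (by norm_num) ?_ ?_ (hτ z hz)
      · filter_upwards [Γ_Fr_loc h hr q₀] with w hw hd
        refine hw.trans ?_
        exact pow_le_pow_left₀ (by positivity) (hloc z hz w hd) 2
      · filter_upwards [Γ_Fr_le h hr q₀] with w hw
        nlinarith [sq_nonneg ℓ]
    have c2 : Real.exp (-(2 * K * t)) ≤ Real.exp (2 * |K| * t) := by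
      apply Real.exp_le_exp.2
      have := neg_abs_le K
      nlinarith
    calc _ ≤ _ := a2
      _ ≤ Real.exp (2 * |K| * t) * pt m p t ((sob m).Γ (Fr m r q₀) (Fr m r q₀)) z :=
          mul_le_mul_of_nonneg_right c2 c0
      _ ≤ _ := mul_le_mul_of_nonneg_left c1 (Real.exp_pos _).le
  have b2 : (sob m).Γ ((sob m).P t D) ((sob m).P t D) z
      ≤ Real.exp (2 * |K| * t) / (2 * t) * (g ^ 2 + b ^ 2 * τ) := by
    refine a5.trans (mul_le_mul_of_nonneg_left ?_ (by positivity))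
    have hGb : ∀ᵐ w ∂m, |(D w - c') ^ 2| ≤ b ^ 2 := by
      filter_upwards [hDae] with w hw
      rw [abs_of_nonneg (sq_nonneg _), hw, ← sq_abs]
      exact pow_le_pow_left₀ (abs_nonneg _) (hFb w) 2
    have hGm : AEStronglyMeasurable (fun w => (D w - c') ^ 2) m := by
      have : AEStronglyMeasurable (fun w => D w - c') m :=
        D.aestronglyMeasurable.sub aestronglyMeasurable_const
      exact this.pow 2
    refine pt_split hp ht z (pt_int_top hp ht z (memLp_top_of_bound hGm _ hGb)) (sq_nonneg b)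
      ?_ ?_ (hτ z hz)
    · filter_upwards [hDae] with w hw hd
      rw [hw, ← sq_abs]
      exact pow_le_pow_left₀ (abs_nonneg _) (hF z hz w hd) 2
    · filter_upwards [hGb] with w hw
      have := (le_abs_self _).trans hw
      nlinarith [sq_nonneg g]
  have hβ' : 0 < β⁻¹ := inv_pos.2 hβ
  have c3 := mul_le_mul_of_nonneg_left b1 (show (0 : ℝ) ≤ 1 + β by linarith)
  have c4 := mul_le_mul_of_nonneg_left b2 (show (0 : ℝ) ≤ 1 + β⁻¹ by linarith)
  linarith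

end

/-- **Lemma D.** -/
theorem pt_sub_le (hp : Ker0 m p) {Cm : ℝ} (hM : MomB m p Cm) {r t : ℝ} (hr : 0 < r) (ht : 0 < t)
    (ht1 : t ≤ 1) (q z : M) : |pt m p t (fr r q) z - fr r q z| ≤ 2 * Cm * √t := by
  obtain ⟨i1, h1⟩ := hM t ht ht1 z
  have hft : MemLp (fr r q) ∞ m :=
    memLp_top_of_bound (fr_cont hr q).aestronglyMeasurable (3 / 2 * r)
      (Eventually.of_forall fun w => by rw [Real.norm_eq_abs]; exact abs_fr_le hr q w)
  have i2 := pt_int_top hp ht z hft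
  have i3 := hp.int t ht z
  have e : pt m p t (fr r q) z - fr r q z = ∫ w, (p t z w * fr r q w - p t z w * fr r q z) ∂m := by
    rw [integral_sub i2 (i3.mul_const _), integral_mul_const, hp.mass t ht z, one_mul]
    rfl
  rw [e]
  refine (abs_integral_le_integral_abs).trans ?_
  calc ∫ w, |p t z w * fr r q w - p t z w * fr r q z| ∂m
      ≤ ∫ w, 2 * (p t z w * dist z w) ∂m := by
        refine integral_mono (i2.sub (i3.mul_const _)).abs (i1.const_mul 2) fun w => ?_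
        simp only
        have e2 : p t z w * fr r q w - p t z w * fr r q z = p t z w * (fr r q w - fr r q z) := by
          ring
        have h0 := hp.nonneg t ht z w
        rw [e2, abs_mul, abs_of_nonneg h0]
        calc p t z w * |fr r q w - fr r q z| ≤ p t z w * (2 * dist w z) :=
              mul_le_mul_of_nonneg_left (abs_fr_sub hr q w z) h0
          _ = 2 * (p t z w * dist z w) := by rw [dist_comm w z]; ring
    _ = 2 * ∫ w, p t z w * dist z w ∂m := integral_const_mul _ _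
    _ ≤ _ := by linarith

section
variable (hC : IsGamma (sob m)) {N : ℝ} (hN : 0 < N) (hBE : (sob m).BE K N)
  (hp : Ker0 m p) {o : M} {A : ℝ} (hk : KB n o A p)
include hC hN hBE hp hk

/-- Cauchy-Schwarz for `Γ` -/
theorem pt_Γ_cs {u v : M →ₘ[m] ℝ} (hu : u ∈ (sob m).W) (hv : v ∈ (sob m).W) {s : ℝ} (hs : 0 < s)
    (x : M) : |pt m p s ((sob m).Γ u v) x| ≤
      √(pt m p s ((sob m).Γ u u) x) * √(pt m p s ((sob m).Γ v v) x) := by
  have hD := hC.toIsDir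
  have m1 : ∀ {f : M →ₘ[m] ℝ}, MemLp f 1 m → Integrable (fun z => p s x z * f z) m := by
    intro f hf
    exact (int_ph_mul hp hs x).1 (mem_mul_top (ph_top hC hp hk hs x) hf)
  have hsq : ∀ {f : M →ₘ[m] ℝ}, f ∈ (sob m).W →
      (fun z => √((sob m).Γ f f z) ^ 2) =ᵐ[m] ((sob m).Γ f f) := by
    intro f hf
    filter_upwards [hD.Γ_nonneg_ae hf] with z hz
    exact Real.sq_sqrt hz
  have hm : ∀ {f : M →ₘ[m] ℝ}, AEStronglyMeasurable (fun z => √((sob m).Γ f f z)) m := fun {f} =>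
    Real.continuous_sqrt.comp_aestronglyMeasurable ((sob m).Γ f f).aestronglyMeasurable
  have i1 : ∀ {f : M →ₘ[m] ℝ}, f ∈ (sob m).W →
      Integrable (fun z => p s x z * √((sob m).Γ f f z) ^ 2) m := by
    intro f hf
    refine (m1 (hD.Γ_mem1 hf hf)).congr ?_
    filter_upwards [hsq hf] with z hz
    rw [hz]
  obtain ⟨j, cs⟩ := pt_cs hp hs x (hm (f := u)) (hm (f := v)) (i1 hu) (i1 hv)
  rw [pt_congr hp (hsq hu), pt_congr hp (hsq hv)] at cs
  have h0 : 0 ≤ pt m p s ((sob m).Γ u u) x := pt_nonneg hp hs x (hD.Γ_nonneg_ae hu)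
  have h1 : |pt m p s ((sob m).Γ u v) x| ≤
      pt m p s (fun z => √((sob m).Γ u u z) * √((sob m).Γ v v z)) x := by
    refine (abs_pt_le hp hs x _).trans ?_
    refine pt_mono hp hs x ?_ j (hD.Γ_abs_ae hu hv)
    refine (m1 (hD.Γ_mem1 hu hv)).abs.congr (Eventually.of_forall fun z => ?_)
    simp only
    rw [abs_mul, abs_of_nonneg (hp.nonneg s hs x z)]
  refine h1.trans ?_
  rw [← Real.sqrt_mul h0]
  exact (le_abs_self _).trans (Real.abs_le_sqrt cs)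

/-- **Lemma G.** `s ↦ P_s |∇u|² (x)` is almost nondecreasing -/
theorem Phi_mono {u : M →ₘ[m] ℝ} (hu : u ∈ (sob m).TestI)
    (hΓ : ∀ᵐ z ∂m, (sob m).Γ u u z ≤ 4) (x : M) {s₁ s₂ D : ℝ} (hs₁ : 0 < s₁) (hs : s₁ ≤ s₂)
    (hD0 : 0 ≤ D)
    (hD : ∀ s, s₁ ≤ s → s ≤ s₂ → pt m p s ((sob m).Γ ((sob m).lap u) ((sob m).lap u)) x ≤ D ^ 2) :
    pt m p s₁ ((sob m).Γ u u) x ≤
      pt m p s₂ ((sob m).Γ u u) x + (s₂ - s₁) * (4 * D + 8 * |K|) := by
  have hDir := hC.toIsDir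
  have hBi := hC.bei hN hBE
  have hBE' : (sob m).BE (-|K|) N := hC.be_mono hN (neg_abs_le K) hBE
  have hBi' := hC.bei hN hBE'
  have hcen := cen hC hp hk x
  have huW : u ∈ (sob m).W := (hC.test_A hu.1).1
  have hlW : (sob m).lap u ∈ (sob m).W := hC.test_lap_mem hu.1
  have hΓ2 : MemLp ((sob m).Γ u u) 2 m := hC.Γ_mem2' hBi hu.1 hu.1
  have hder : ∀ s, 0 < s → HasDerivAt (fun s => I (ph m p s x * (sob m).Γ u u))
      (I ((sob m).lap (ph m p s x) * (sob m).Γ u u)) s := fun s h0 =>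
    hcen.hasDeriv_av hDir h0 hΓ2
  have hlow : ∀ s, s₁ ≤ s → s ≤ s₂ →
      -(4 * D + 8 * |K|) ≤ I ((sob m).lap (ph m p s x) * (sob m).Γ u u) := by
    intro s h1 h2
    have h0 : 0 < s := hs₁.trans_le h1
    have e := hcen.lap_av_Γ hC hBi' (K₀ := |K|) h0 hu.1 hu.1
    have hNN : 0 ≤ (sob m).NN (-|K|) u u (ph m p s x) :=
      hC.NN_nonneg hBi' hu.1 (ph_A hC hp hk h0 x) (ph_nonneg hp h0 x)
    have hmem : MemLp ((sob m).Γ u ((sob m).lap u)) 1 m := hDir.Γ_mem1 huW hlW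
    have e2 : I (ph m p s x * ((sob m).Γ u ((sob m).lap u) + (sob m).Γ u ((sob m).lap u)))
        = 2 * pt m p s ((sob m).Γ u ((sob m).lap u)) x := by
      rw [mul_add, I_add (mem_mul_top (ph_top hC hp hk h0 x) hmem)
        (mem_mul_top (ph_top hC hp hk h0 x) hmem), I_ph_mul hp h0 x]
      ring
    have hu4 : pt m p s ((sob m).Γ u u) x ≤ 4 := by
      rw [← pt_const hp h0 x (4 : ℝ)]
      refine pt_mono hp h0 x (pt_int hp h0 x hΓ2) ((hp.int s h0 x).mul_const _) hΓ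
    have hu0 : 0 ≤ pt m p s ((sob m).Γ u u) x := pt_nonneg hp h0 x (hDir.Γ_nonneg_ae huW)
    have hcs := pt_Γ_cs hC hN hBE hp hk huW hlW h0 x
    have hq1 : √(pt m p s ((sob m).Γ u u) x) ≤ 2 := by
      rw [Real.sqrt_le_left (by norm_num)]
      linarith
    have hq2 : √(pt m p s ((sob m).Γ ((sob m).lap u) ((sob m).lap u)) x) ≤ D := by
      rw [Real.sqrt_le_left hD0]
      exact hD s h1 h2
    have hq3 : |pt m p s ((sob m).Γ u ((sob m).lap u)) x| ≤ 2 * D :=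
      hcs.trans (mul_le_mul hq1 hq2 (Real.sqrt_nonneg _) (by norm_num))
    have e3 : I ((sob m).lap (ph m p s x) * (sob m).Γ u u)
        = 2 * (sob m).NN (-|K|) u u (ph m p s x) + 2 * pt m p s ((sob m).Γ u ((sob m).lap u)) x
          - 2 * |K| * pt m p s ((sob m).Γ u u) x := by
      rw [← e2, ← I_ph_mul hp h0 x]
      exact e
    rw [e3]
    have hK := abs_nonneg K
    have := mul_le_mul_of_nonneg_left hu4 hK
    have := (abs_le.1 hq3).1
    linarith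
  have hmv := Convex.mul_sub_le_image_sub_of_le_deriv (convex_Icc s₁ s₂)
    (f := fun s => I (ph m p s x * (sob m).Γ u u)) (C := -(4 * D + 8 * |K|))
    (fun s hs' => (hder s (hs₁.trans_le hs'.1)).continuousAt.continuousWithinAt)
    (fun s hs' => by
      rw [interior_Icc] at hs'
      exact (hder s (hs₁.trans hs'.1)).differentiableAt.differentiableWithinAt)
    (fun s hs' => by
      rw [interior_Icc] at hs'
      rw [(hder s (hs₁.trans hs'.1)).deriv]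
      exact hlow s hs'.1.le hs'.2.le)
    s₁ (left_mem_Icc.2 hs) s₂ (right_mem_Icc.2 hs) hs
  rw [I_ph_mul hp hs₁ x, I_ph_mul hp (hs₁.trans_le hs) x] at hmv
  linarith

/-- **Lemma G, limit.** -/
theorem Γ_le_pt {u : M →ₘ[m] ℝ} (hu : u ∈ (sob m).TestI)
    (hΓ : ∀ᵐ z ∂m, (sob m).Γ u u z ≤ 4) {B : Set M} {S D : ℝ} (hS : 0 < S) (hD0 : 0 ≤ D)
    (hD : ∀ x ∈ B, ∀ s, 0 < s → s ≤ S →
      pt m p s ((sob m).Γ ((sob m).lap u) ((sob m).lap u)) x ≤ D ^ 2) :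
    ∀ᵐ x ∂m, x ∈ B → (sob m).Γ u u x ≤
      pt m p S ((sob m).Γ u u) x + S * (4 * D + 8 * |K|) := by
  have hDir := hC.toIsDir
  have hBi := hC.bei hN hBE
  have hΓ2 : MemLp ((sob m).Γ u u) 2 m := hC.Γ_mem2' hBi hu.1 hu.1
  set s : ℕ → ℝ := fun k => S / ((k : ℝ) + 1) with hs
  have hs0 : ∀ k, 0 < s k := fun k => by positivity
  have hsS : ∀ k, s k ≤ S := fun k => by
    have h1 : (1 : ℝ) ≤ (k : ℝ) + 1 := by
      have : (0 : ℝ) ≤ k := k.cast_nonneg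
      linarith
    exact div_le_self hS.le h1
  have hlim : Tendsto s atTop (𝓝 0) := by
    have h1 : Tendsto (fun k : ℕ => S * (1 / ((k : ℝ) + 1))) atTop (𝓝 (S * 0)) :=
      (tendsto_one_div_add_atTop_nhds_zero_nat (𝕜 := ℝ)).const_mul S
    rw [mul_zero] at h1
    refine h1.congr fun k => ?_
    simp only [hs]; ring
  have hcont := (hDir.P_cont hΓ2 0).comp hlim
  rw [hDir.P_zero_time hΓ2] at hcont
  obtain ⟨ns, hns, hae⟩ := exists_subseq_of_I_sq (u := fun k => (sob m).P (s k) ((sob m).Γ u u))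
    (fun k => hDir.P_mem2 _ hΓ2) hΓ2 hcont
  have hrep : ∀ᵐ x ∂m, ∀ k, (sob m).P (s k) ((sob m).Γ u u) x = pt m p (s k) ((sob m).Γ u u) x :=
    ae_all_iff.2 fun k => hp.rep _ (hs0 k) _ hΓ2
  filter_upwards [hae, hrep] with x h1 h2 hx
  refine le_of_tendsto h1 (Eventually.of_forall fun k => ?_)
  rw [h2]
  have h3 := Phi_mono hC hN hBE hp hk hu hΓ x (hs0 (ns k)) (hsS (ns k)) hD0
    (fun s' h4 h5 => hD x hx s' ((hs0 _).trans_le h4) h5)
  refine h3.trans ?_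
  have h6 : (S - s (ns k)) * (4 * D + 8 * |K|) ≤ S * (4 * D + 8 * |K|) := by
    refine mul_le_mul_of_nonneg_right ?_ (by positivity)
    linarith [hs0 (ns k)]
  linarith

/-- **Lemma L.** a point with large `P_S |∇u|²` -/
theorem exists_good [m.IsOpenPosMeasure] (hfin : ∀ (x : M) (r : ℝ), m (ball x r) < ∞)
    (hs2l : ∀ f ∈ (sob m).W, slope f ≤ 1 → ∃ u : M → ℝ, LipschitzWith 1 u ∧ f =ᵐ[m] u)
    {u : M →ₘ[m] ℝ} (hu : u ∈ (sob m).TestI)
    (hΓ : ∀ᵐ z ∂m, (sob m).Γ u u z ≤ 4) {v : M → ℝ} (hv : Met.IsLip v) (huv : u =ᵐ[m] v)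
    {x₀ y : M} {R S D κ : ℝ} (hy : 2 * dist x₀ y < R) (hS : 0 < S) (hD0 : 0 ≤ D) (hκ : 0 < κ)
    (hκ1 : κ ≤ 1)
    (hD : ∀ x ∈ ball x₀ R, ∀ s, 0 < s → s ≤ S →
      pt m p s ((sob m).Γ ((sob m).lap u) ((sob m).lap u)) x ≤ D ^ 2)
    (hsm : S * (4 * D + 8 * |K|) ≤ κ / 2)
    (hvy : (1 - κ / 4) * dist x₀ y < v y - v x₀) :
    ∃ x ∈ ball x₀ R, 1 - κ < pt m p S ((sob m).Γ u u) x := by
  by_contra hcon
  push Not at hcon
  have huW : u ∈ (sob m).W := (hC.test_A hu.1).1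
  have h1 := Γ_le_pt hC hN hBE hp hk hu hΓ hS hD0 hD
  have h2 : ∀ᵐ z ∂m, dist z x₀ < R → (sob m).Γ u u z ≤ (1 - κ / 4) ^ 2 := by
    filter_upwards [h1] with z hz hd
    have h3 := hz hd
    have h4 := hcon z hd
    nlinarith [sq_nonneg κ]
  have h5 := local_stl_pos hfin hs2l huW hv huv (G := 1 - κ / 4) (R := R) (by linarith) hy h2
  linarith

end

end Vale.Agent.P242.H446
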