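import Vale.Agent.P242.H373.AEDefs
import Mathlib.Analysis.InnerProductSpace.PiL2

/-! P242, package A-MAPS (helper446), part 1: the poles `q_ξ` of an almost Euclidean ball and
the expansion of `d(·, q_ξ)²/2`. -/

set_option linter.all false

open Set Metric
open scoped InnerProductSpace

universe u

namespace Vale.Agent.P242.H446

open Vale.Agent.P242.H373

/-- the Euclidean space -/
abbrev E (n : ℕ) : Type := EuclideanSpace ℝ (Fin n)

/-- The almost isometry `f` of `ball p R` and the poles `q ξ`. -/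
structure Poles {X : Type u} [MetricSpace X] (n : ℕ) (δ R : ℝ) (p : X) (f : X → E n)
    (q : E n → X) : Prop where
  zero : f p = 0
  dst : ∀ y ∈ ball p R, ∀ z ∈ ball p R, |dist (f y) (f z) - dist y z| ≤ δ * R
  dense : ∀ w ∈ ball (0 : E n) R, ∃ y ∈ ball p R, dist (f y) w ≤ δ * R
  mem : ∀ ξ : E n, ‖ξ‖ = 1 → q ξ ∈ ball p R
  pole : ∀ ξ : E n, ‖ξ‖ = 1 → dist (f (q ξ)) ((R / 2) • ξ) ≤ δ * R

theorem exists_poles {X : Type u} [MetricSpace X] {n : ℕ} {δ R : ℝ} {p : X} (hR : 0 < R)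
    (h : GHClose n δ p R) : ∃ (f : X → E n) (q : E n → X), Poles n δ R p f q := by
  classical
  obtain ⟨f₀, h1, h2⟩ := h
  set f : X → E n := fun x => f₀ x - f₀ p with hf
  have hd : ∀ y z, dist (f y) (f z) = dist (f₀ y) (f₀ z) := by
    intro y z
    simp [hf]
  have hdense : ∀ w ∈ ball (0 : E n) R, ∃ y ∈ ball p R, dist (f y) w ≤ δ * R := by
    intro w hw
    have hw' : w + f₀ p ∈ ball (f₀ p) R := by
      rw [mem_ball_zero_iff] at hw
      rw [mem_ball, dist_eq_norm]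
      simpa using hw
    obtain ⟨y, hy, hy2⟩ := h2 _ hw'
    refine ⟨y, hy, ?_⟩
    rw [dist_eq_norm] at hy2 ⊢
    have e : f y - w = f₀ y - (w + f₀ p) := by
      simp only [hf]; abel
    rw [e]
    exact hy2
  have hpole : ∀ ξ : E n, ‖ξ‖ = 1 → ∃ y ∈ ball p R, dist (f y) ((R / 2) • ξ) ≤ δ * R := by
    intro ξ hξ
    refine hdense _ ?_
    rw [mem_ball_zero_iff, norm_smul, hξ, mul_one, Real.norm_eq_abs, abs_of_pos (by positivity)]
    linarith
  haveI : Nonempty X := ⟨p⟩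
  choose! q hq1 hq2 using hpole
  refine ⟨f, q, ?_, ?_, hdense, hq1, hq2⟩
  · simp [hf]
  · intro y hy z hz
    rw [hd]
    exact h1 y hy z hz

namespace Poles

variable {X : Type u} [MetricSpace X] {n : ℕ} {δ R r : ℝ} {p : X} {f : X → E n} {q : E n → X}

theorem norm_le (h : Poles n δ R p f q) {x : X} (hR : 0 < R) (hx : x ∈ ball p R) :
    ‖f x‖ ≤ dist x p + δ * R := by
  have h1 := h.dst x hx p (mem_ball_self hR)
  rw [h.zero, dist_zero_right, abs_le] at h1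
  linarith [h1.2]

theorem dist_le (h : Poles n δ R p f q) {x : X} (hR : 0 < R) (hx : x ∈ ball p R) :
    dist x p ≤ ‖f x‖ + δ * R := by
  have h1 := h.dst x hx p (mem_ball_self hR)
  rw [h.zero, dist_zero_right, abs_le] at h1
  linarith [h1.1]

theorem dist_pole (h : Poles n δ R p f q) (hR : 0 < R) (hδ : 0 ≤ δ) {ξ : E n} (hξ : ‖ξ‖ = 1) :
    dist p (q ξ) ≤ R / 2 + 2 * (δ * R) := by
  have h1 := h.dist_le hR (h.mem ξ hξ)
  have h2 := h.pole ξ hξ
  have h3 : ‖f (q ξ)‖ ≤ R / 2 + δ * R := by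
    have h4 : ‖(R / 2) • ξ‖ = R / 2 := by
      rw [norm_smul, hξ, mul_one, Real.norm_eq_abs, abs_of_pos (by positivity)]
    rw [dist_eq_norm] at h2
    have := norm_le_norm_add_norm_sub' (f (q ξ)) ((R / 2) • ξ)
    linarith
  rw [dist_comm] at h1
  linarith

/-- the expansion of `d(·, q_ξ)² / 2` -/
theorem expand (h : Poles n δ R p f q) (hR : 0 < R) (hδ : 0 < δ) (hδ1 : δ ≤ 1 / 8)
    (hr1 : δ * R ≤ r) (hr2 : r ≤ R / 4) {ξ : E n} (hξ : ‖ξ‖ = 1) {x : X} (hx : x ∈ ball p r) :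
    |dist x (q ξ) ^ 2 / 2 - (R ^ 2 / 8 - R / 2 * ⟪ξ, f x⟫_ℝ)| ≤ 2 * r ^ 2 + 4 * δ * R ^ 2 := by
  have hδR : 0 < δ * R := by positivity
  have hrR : r < R := by linarith
  have hxR : x ∈ ball p R := ball_subset_ball hrR.le hx
  set a := dist (f x) (f (q ξ)) with ha
  set d := dist x (q ξ) with hd
  set b := ‖f x - (R / 2) • ξ‖ with hb
  have h1 : |a - d| ≤ δ * R := h.dst x hxR _ (h.mem ξ hξ)
  have h2 := h.pole ξ hξ
  have h3 : |a - b| ≤ δ * R := by
    rw [ha, hb, ← dist_eq_norm, dist_comm (f x), dist_comm (f x)]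
    exact (abs_dist_sub_le _ _ _).trans h2
  have h4 : |d - b| ≤ 2 * (δ * R) := by
    rw [abs_le] at *
    constructor <;> linarith [h1.1, h1.2, h3.1, h3.2]
  have hfx : ‖f x‖ ≤ 2 * r := by
    have := h.norm_le hR hxR
    have h5 : dist x p < r := hx
    linarith
  have hξR : ‖(R / 2) • ξ‖ = R / 2 := by
    rw [norm_smul, hξ, mul_one, Real.norm_eq_abs, abs_of_pos (by positivity)]
  have hbR : b ≤ R := by
    have : b ≤ ‖f x‖ + ‖(R / 2) • ξ‖ := norm_sub_le _ _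
    linarith
  have hb0 : 0 ≤ b := norm_nonneg _
  have hd0 : 0 ≤ d := dist_nonneg
  have h5 : |d ^ 2 - b ^ 2| ≤ 2 * (δ * R) * (9 / 4 * R) := by
    have e : d ^ 2 - b ^ 2 = (d - b) * (d + b) := by ring
    rw [e, abs_mul, abs_of_nonneg (by positivity : 0 ≤ d + b)]
    refine mul_le_mul h4 ?_ (by positivity) (by positivity)
    have := (abs_le.1 h4).2
    nlinarith
  have h6 : b ^ 2 = ‖f x‖ ^ 2 - R * ⟪ξ, f x⟫_ℝ + (R / 2) ^ 2 := by
    rw [hb, norm_sub_sq_real, hξR, inner_smul_right, real_inner_comm]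
    ring
  have h7 : ‖f x‖ ^ 2 ≤ 4 * r ^ 2 := by
    have := pow_le_pow_left₀ (norm_nonneg _) hfx 2
    calc ‖f x‖ ^ 2 ≤ (2 * r) ^ 2 := this
      _ = 4 * r ^ 2 := by ring
  have h8 : 0 ≤ ‖f x‖ ^ 2 := sq_nonneg _
  rw [abs_le] at h5 ⊢
  have h9 : δ * R * R = δ * R ^ 2 := by ring
  have h10 : 0 ≤ δ * R ^ 2 := by positivity
  constructor
  · nlinarith [h5.1, h5.2]
  · nlinarith [h5.1, h5.2]

end Poles

end Vale.Agent.P242.H446
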