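import Mathlib.Analysis.SpecialFunctions.Exp
import Mathlib.Analysis.SpecialFunctions.Pow.Real
import Mathlib.Topology.MetricSpace.Pseudo.Defs

/-! P242, package A-MAPS (helper446), part 8: choice of the parameters. -/

set_option linter.all false

open Filter Topology Set Metric

namespace Vale.Agent.P242.H446

/-- numerical conditions, scale free -/
structure Num (n : ℕ) (Cm Ct S R σ θ η₁ Q L τ : ℝ) : Prop where
  θ_pos : 0 < θ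
  θ_le : θ ≤ 1
  η_pos : 0 < η₁
  η_le : η₁ ≤ 1
  Q_ge : 2 * R + 2 ≤ Q
  L_eq : 4 * (Q + 1) ^ 2 = η₁ * L
  τ_eq : τ = Ct * Real.exp (-(Q ^ 2 / (128 * (S + 1))))
  e1 : (2 * √n + 2) * (η₁ + (2 * η₁ + 2 * Cm * √θ)) ≤ σ
  e2 : 2 * ((n + 1) / L) ^ 2 + 128 * n / θ ^ 2 * (16 * η₁ ^ 2 + 4 * L ^ 2 * τ) ≤ θ * σ ^ 2 / 2
  e3 : (1 + σ / 8) * ((1 + σ / 8) * ((1 + (Q + 2) / L) ^ 2 + 3 * τ)) +
    (1 + 8 / σ) * ((n + 1) ^ 2 / θ * (4 * η₁ ^ 2 + L ^ 2 * τ)) ≤ 1 + σ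

theorem lim_tail {c : ℝ} (hc : 0 < c) :
    Tendsto (fun Q : ℝ => Real.exp (-(Q ^ 2 / c))) atTop (𝓝 0) := by
  refine Real.tendsto_exp_neg_atTop_nhds_zero.comp ?_
  have h1 : Tendsto (fun Q : ℝ => Q ^ 2) atTop atTop := tendsto_pow_atTop two_ne_zero
  exact h1.atTop_div_const hc

theorem lim_pow_tail {c : ℝ} (hc : 0 < c) :
    Tendsto (fun Q : ℝ => (Q + 1) ^ 4 * Real.exp (-(Q ^ 2 / c))) atTop (𝓝 0) := by
  have h1 : Tendsto (fun Q : ℝ => Q ^ 2 / c) atTop atTop :=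
    (tendsto_pow_atTop two_ne_zero).atTop_div_const hc
  have h2 := (Real.tendsto_pow_mul_exp_neg_atTop_nhds_zero 2).comp h1
  have h3 : Tendsto (fun Q : ℝ => 16 * c ^ 2 * ((Q ^ 2 / c) ^ 2 * Real.exp (-(Q ^ 2 / c))))
      atTop (𝓝 0) := by
    have := h2.const_mul (16 * c ^ 2)
    rwa [mul_zero] at this
  refine squeeze_zero' (Eventually.of_forall fun Q => by positivity) ?_ h3
  filter_upwards [eventually_ge_atTop 1] with Q hQ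
  have h4 : (Q + 1) ^ 4 ≤ 16 * c ^ 2 * (Q ^ 2 / c) ^ 2 := by
    have e : 16 * c ^ 2 * (Q ^ 2 / c) ^ 2 = (2 * Q) ^ 4 := by
      field_simp; ring
    rw [e]
    exact pow_le_pow_left₀ (by linarith) (by linarith) 4
  calc (Q + 1) ^ 4 * Real.exp (-(Q ^ 2 / c))
      ≤ (16 * c ^ 2 * (Q ^ 2 / c) ^ 2) * Real.exp (-(Q ^ 2 / c)) :=
        mul_le_mul_of_nonneg_right h4 (Real.exp_nonneg _)
    _ = _ := by ring

theorem exists_num (n : ℕ) {Cm Ct S R σ : ℝ} (hCm : 0 ≤ Cm) (hS : 0 ≤ S)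
    (hσ : 0 < σ) (hσ1 : σ ≤ 1) : ∃ θ η₁ Q L τ, Num n Cm Ct S R σ θ η₁ Q L τ := by
  -- `θ`
  obtain ⟨a, ha0, ha1, ha⟩ : ∃ a : ℝ, 0 < a ∧ a ≤ 1 ∧ (2 * √n + 2) * (2 * Cm * a) ≤ σ / 2 := by
    have hB : 0 ≤ (2 * √n + 2) * (2 * Cm) := by positivity
    refine ⟨min 1 (σ / (2 * ((2 * √n + 2) * (2 * Cm) + 1))), by positivity, min_le_left _ _, ?_⟩
    calc (2 * √n + 2) * (2 * Cm * min 1 (σ / (2 * ((2 * √n + 2) * (2 * Cm) + 1))))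
        = (2 * √n + 2) * (2 * Cm) * min 1 (σ / (2 * ((2 * √n + 2) * (2 * Cm) + 1))) := by ring
      _ ≤ (2 * √n + 2) * (2 * Cm) * (σ / (2 * ((2 * √n + 2) * (2 * Cm) + 1))) :=
          mul_le_mul_of_nonneg_left (min_le_right _ _) hB
      _ ≤ σ / 2 := by
          rw [mul_div_assoc', div_le_div_iff₀ (by positivity) two_pos]
          nlinarith
  obtain ⟨θ, hθdef⟩ : ∃ θ, θ = a ^ 2 := ⟨_, rfl⟩
  have hθ0 : 0 < θ := by rw [hθdef]; positivity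
  have hθ1 : θ ≤ 1 := by rw [hθdef]; nlinarith
  have hsθ : √θ = a := by rw [hθdef]; exact Real.sqrt_sq ha0.le
  -- `η₁`
  obtain ⟨η₁, hη0, hη1, k1, k2, k3⟩ : ∃ η₁ : ℝ, 0 < η₁ ∧ η₁ ≤ 1 ∧
      (2 * √n + 2) * (3 * η₁) ≤ σ / 2 ∧ 128 * n / θ ^ 2 * (16 * η₁ ^ 2) ≤ θ * σ ^ 2 / 4 ∧
      (1 + 8 / σ) * ((n + 1) ^ 2 / θ * (4 * η₁ ^ 2)) ≤ σ / 4 := by
    have l1 : ∀ᶠ η in 𝓝 (0 : ℝ), (2 * √n + 2) * (3 * η) < σ / 2 := by
      have hc : ContinuousAt (fun η : ℝ => (2 * √n + 2) * (3 * η)) 0 := by fun_prop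
      refine hc.eventually (gt_mem_nhds ?_)
      simp; positivity
    have l2 : ∀ᶠ η in 𝓝 (0 : ℝ), 128 * n / θ ^ 2 * (16 * η ^ 2) < θ * σ ^ 2 / 4 := by
      have hc : ContinuousAt (fun η : ℝ => 128 * n / θ ^ 2 * (16 * η ^ 2)) 0 := by fun_prop
      refine hc.eventually (gt_mem_nhds ?_)
      simp; positivity
    have l3 : ∀ᶠ η in 𝓝 (0 : ℝ), (1 + 8 / σ) * ((n + 1) ^ 2 / θ * (4 * η ^ 2)) < σ / 4 := by
      have hc : ContinuousAt (fun η : ℝ => (1 + 8 / σ) * ((n + 1) ^ 2 / θ * (4 * η ^ 2))) 0 := by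
        fun_prop
      refine hc.eventually (gt_mem_nhds ?_)
      simp; positivity
    have l4 : ∀ᶠ η in 𝓝 (0 : ℝ), η < 1 := gt_mem_nhds one_pos
    obtain ⟨ε, hε, hb⟩ := Metric.eventually_nhds_iff.1 (l1.and (l2.and (l3.and l4)))
    have := hb (y := ε / 2) (by rw [Real.dist_eq, sub_zero, abs_of_pos (by positivity)]; linarith)
    exact ⟨ε / 2, by positivity, this.2.2.2.le, this.1.le, this.2.1.le, this.2.2.1.le⟩
  -- `Q`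
  obtain ⟨c, hcdef⟩ : ∃ c, c = 128 * (S + 1) := ⟨_, rfl⟩
  have hc0 : 0 < c := by rw [hcdef]; positivity
  obtain ⟨L, hLdef⟩ : ∃ L : ℝ → ℝ, L = fun Q => 4 * (Q + 1) ^ 2 / η₁ := ⟨_, rfl⟩
  obtain ⟨τ, hτdef⟩ : ∃ τ : ℝ → ℝ, τ = fun Q => Ct * Real.exp (-(Q ^ 2 / c)) := ⟨_, rfl⟩
  have t1 : Tendsto τ atTop (𝓝 0) := by
    have := (lim_tail hc0).const_mul Ct
    rw [mul_zero] at this
    rw [hτdef]
    exact this
  have t2 : Tendsto (fun Q => L Q ^ 2 * τ Q) atTop (𝓝 0) := by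
    have := (lim_pow_tail hc0).const_mul (16 / η₁ ^ 2 * Ct)
    rw [mul_zero] at this
    refine this.congr fun Q => ?_
    rw [hLdef, hτdef]
    field_simp
    ring
  have tinv : Tendsto (fun Q : ℝ => (Q + 1)⁻¹) atTop (𝓝 0) :=
    tendsto_inv_atTop_zero.comp (tendsto_atTop_add_const_right _ _ tendsto_id)
  have t3 : Tendsto (fun Q => (n + 1) / L Q) atTop (𝓝 0) := by
    have := (tinv.pow 2).const_mul ((n + 1) * η₁ / 4)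
    rw [zero_pow two_ne_zero, mul_zero] at this
    refine this.congr fun Q => ?_
    rw [hLdef]
    simp only
    rw [inv_pow, div_div_eq_mul_div, ← div_eq_mul_inv, div_div]
  have t4 : Tendsto (fun Q => (Q + 2) / L Q) atTop (𝓝 0) := by
    have h1 : Tendsto (fun Q : ℝ => η₁ / 4 * ((Q + 1)⁻¹ + ((Q + 1)⁻¹) ^ 2)) atTop
        (𝓝 (η₁ / 4 * (0 + 0 ^ 2))) := (tinv.add (tinv.pow 2)).const_mul _
    rw [zero_pow two_ne_zero, add_zero, mul_zero] at h1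
    refine h1.congr' ?_
    filter_upwards [eventually_ge_atTop 0] with Q hQ
    rw [hLdef]
    have : Q + 1 ≠ 0 := by positivity
    field_simp
    ring
  have T1 : Tendsto (fun Q => 2 * ((n + 1) / L Q) ^ 2 + 128 * n / θ ^ 2 * (4 * (L Q ^ 2 * τ Q)))
      atTop (𝓝 (2 * 0 ^ 2 + 128 * n / θ ^ 2 * (4 * 0))) :=
    ((t3.pow 2).const_mul 2).add ((t2.const_mul 4).const_mul _)
  have T2 : Tendsto (fun Q => (1 + σ / 8) * ((1 + σ / 8) * ((1 + (Q + 2) / L Q) ^ 2 + 3 * τ Q)) +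
      (1 + 8 / σ) * ((n + 1) ^ 2 / θ * (L Q ^ 2 * τ Q))) atTop
      (𝓝 ((1 + σ / 8) * ((1 + σ / 8) * ((1 + 0) ^ 2 + 3 * 0)) +
        (1 + 8 / σ) * ((n + 1) ^ 2 / θ * 0))) :=
    (((((t4.const_add 1).pow 2).add (t1.const_mul 3)).const_mul _).const_mul _).add
      ((t2.const_mul _).const_mul _)
  have v1 : ∀ᶠ Q in atTop, 2 * ((n + 1) / L Q) ^ 2 + 128 * n / θ ^ 2 * (4 * (L Q ^ 2 * τ Q))
      < θ * σ ^ 2 / 4 := T1.eventually (gt_mem_nhds (by simp; positivity))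
  have v2 : ∀ᶠ Q in atTop, (1 + σ / 8) * ((1 + σ / 8) * ((1 + (Q + 2) / L Q) ^ 2 + 3 * τ Q)) +
      (1 + 8 / σ) * ((n + 1) ^ 2 / θ * (L Q ^ 2 * τ Q)) < 1 + σ / 2 :=
    T2.eventually (gt_mem_nhds (by nlinarith))
  obtain ⟨Q, hQ1, hQ2, hQ3, hQ0⟩ := (v1.and (v2.and ((eventually_ge_atTop (2 * R + 2)).and
    (eventually_ge_atTop 0)))).exists
  refine ⟨θ, η₁, Q, L Q, τ Q, hθ0, hθ1, hη0, hη1, hQ3, ?_, ?_, ?_, ?_, ?_⟩
  · rw [hLdef]; field_simp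
  · rw [hτdef, hcdef]
  · rw [hsθ]; nlinarith
  · have e : 128 * n / θ ^ 2 * (16 * η₁ ^ 2 + 4 * L Q ^ 2 * τ Q) =
      128 * n / θ ^ 2 * (16 * η₁ ^ 2) + 128 * n / θ ^ 2 * (4 * (L Q ^ 2 * τ Q)) := by ring
    rw [e]; linarith
  · have e : (1 + 8 / σ) * ((n + 1) ^ 2 / θ * (4 * η₁ ^ 2 + L Q ^ 2 * τ Q)) =
      (1 + 8 / σ) * ((n + 1) ^ 2 / θ * (4 * η₁ ^ 2)) +
        (1 + 8 / σ) * ((n + 1) ^ 2 / θ * (L Q ^ 2 * τ Q)) := by ring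
    rw [e]; linarith

/-- conditions on the scale -/
structure NumR (K L S R σ ρ : ℝ) : Prop where
  ρ_pos : 0 < ρ
  k1 : |K| * (L * ρ) ^ 2 ≤ 1
  k2 : (S + 1) * ρ ^ 2 ≤ 1 / 2
  k3 : R * ρ ≤ 1
  k4 : |K| * ρ ^ 2 ≤ σ
  k5 : Real.exp (2 * |K| * ρ ^ 2) ≤ 1 + σ / 8

theorem exists_numR (K L S R : ℝ) {σ ρ₁ : ℝ} (hσ : 0 < σ) (hρ₁ : 0 < ρ₁) :
    ∃ r₀, 0 < r₀ ∧ r₀ ≤ ρ₁ ∧ ∀ ρ, 0 < ρ → ρ < r₀ → NumR K L S R σ ρ := by
  have l1 : ∀ᶠ ρ in 𝓝 (0 : ℝ), |K| * (L * ρ) ^ 2 < 1 := by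
    have hc : ContinuousAt (fun ρ : ℝ => |K| * (L * ρ) ^ 2) 0 := by fun_prop
    exact hc.eventually (gt_mem_nhds (by simp))
  have l2 : ∀ᶠ ρ in 𝓝 (0 : ℝ), (S + 1) * ρ ^ 2 < 1 / 2 := by
    have hc : ContinuousAt (fun ρ : ℝ => (S + 1) * ρ ^ 2) 0 := by fun_prop
    exact hc.eventually (gt_mem_nhds (by simp))
  have l3 : ∀ᶠ ρ in 𝓝 (0 : ℝ), R * ρ < 1 := by
    have hc : ContinuousAt (fun ρ : ℝ => R * ρ) 0 := by fun_prop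
    exact hc.eventually (gt_mem_nhds (by simp))
  have l4 : ∀ᶠ ρ in 𝓝 (0 : ℝ), |K| * ρ ^ 2 < σ := by
    have hc : ContinuousAt (fun ρ : ℝ => |K| * ρ ^ 2) 0 := by fun_prop
    exact hc.eventually (gt_mem_nhds (by simp; exact hσ))
  have l5 : ∀ᶠ ρ in 𝓝 (0 : ℝ), Real.exp (2 * |K| * ρ ^ 2) < 1 + σ / 8 := by
    have hc : ContinuousAt (fun ρ : ℝ => Real.exp (2 * |K| * ρ ^ 2)) 0 := by fun_prop
    exact hc.eventually (gt_mem_nhds (by simp; linarith))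
  obtain ⟨ε, hε, hb⟩ := Metric.eventually_nhds_iff.1 (l1.and (l2.and (l3.and (l4.and l5))))
  refine ⟨min ε ρ₁, lt_min hε hρ₁, min_le_right _ _, fun ρ h0 h1 => ?_⟩
  have := hb (y := ρ) (by
    rw [Real.dist_eq, sub_zero, abs_of_pos h0]; exact h1.trans_le (min_le_left _ _))
  exact ⟨h0, this.1.le, this.2.1.le, this.2.2.1.le, this.2.2.2.1.le, this.2.2.2.2.le⟩

end Vale.Agent.P242.H446
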