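import Vale.Agent.P242.H71.Voc
import Vale.Agent.P242.H446.Est2

/-! P242, package A-MAPS (helper446), part 7: the interface between stage 1 (construction of the
maps and one-sided estimates) and stage 2 (Gram matrix at all points and times). -/

set_option linter.all false

open MeasureTheory Filter Topology Set Metric
open scoped ENNReal NNReal InnerProductSpace

universe u

namespace Vale.Agent.P242.H446

open Vale.Agent.P233 Vale.Agent.P233.RA Vale.Agent.P242.H520 Vale.Agent.P242.H990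
open Vale.Agent.P242.H71 (E Env Cfg HypL PP gm gam uc Gm)

variable {M : Type u} [MetricSpace M] [MeasurableSpace M] [BorelSpace M]

/-- Output of stage 1 of A-MAPS: almost everything in `Cfg`, except the Gram matrix and `gam`, for
which there are only the one-sided bounds `up1`, `up2`. -/
structure Pre (m : Measure M) (n : ℕ) (K : ℝ) (o : M) (p : ℝ → M → M → ℝ) (S R σ ρ : ℝ)
    (u : Fin n → M →ₘ[m] ℝ) (uu : M → E n) : Prop where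
  ρ_pos : 0 < ρ
  Rρ : R * ρ ≤ 1
  Sρ : S * ρ ^ 2 ≤ 1 / 2
  Kρ : |K| * ρ ^ 2 ≤ σ
  test : ∀ i, u i ∈ (sob m).TestI
  lip : ∀ i, Met.IsLip fun z => uu z i
  rep : ∀ i, ∀ᵐ x ∂m, u i x = uu x i
  grad : ∀ i, ∀ᵐ x ∂m, (sob m).Γ (u i) (u i) x ≤ 4
  lap1 : ∀ x ∈ ball o (R * ρ), ∀ s, 0 < s → s ≤ S * ρ ^ 2 → ∀ i,
    pt m p s ((sob m).lap (u i) ^ 2 : M →ₘ[m] ℝ) x ≤ (σ / ρ) ^ 2
  lap2 : ∀ x ∈ ball o (R * ρ), ∀ s, 0 < s → s ≤ S * ρ ^ 2 → ∀ i,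
    pt m p s ((sob m).Γ ((sob m).lap (u i)) ((sob m).lap (u i))) x ≤ (σ / ρ ^ 2) ^ 2
  up1 : ∀ i, ∀ᵐ z ∂m, z ∈ ball o (R * ρ) → (sob m).Γ (u i) (u i) z ≤ 1 + σ
  up2 : ∀ i j, i ≠ j → ∀ᵐ z ∂m, z ∈ ball o (R * ρ) →
    (sob m).Γ (u i + u j) (u i + u j) z ≤ 2 * (1 + σ) ∧
      (sob m).Γ (u i - u j) (u i - u j) z ≤ 2 * (1 + σ)
  iso : ∀ x ∈ ball o (R * ρ), ∀ y ∈ ball o (R * ρ), |dist (uu x) (uu y) - dist x y| ≤ σ * ρ
  dens : ∀ x ∈ ball o (R * ρ / 2), ∀ v : E n, ‖v‖ ≤ R * ρ / 4 →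
    ∃ y, dist x y ≤ 2 * ‖v‖ + ρ ∧ ‖uu y - uu x - v‖ ≤ σ * ρ

end Vale.Agent.P242.H446
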