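import Vale.Agent.P242.H992.Lib
import Vale.Agent.P242.H990.Ph

/-! P242, package A-MAPS (helper446), part 3: the functions `F = -w_q/r`, where
`w_q = min (d_q²/2, 3r²/2) - 3r²/2`. -/

set_option linter.all false

open MeasureTheory Filter Topology Set Metric
open scoped ENNReal NNReal InnerProductSpace

universe u

namespace Vale.Agent.P242.H446

open Vale.Agent.P233 Vale.Agent.P233.RA Vale.Agent.P242.H520 Vale.Agent.P242.H990

section metric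

variable {M : Type u} [MetricSpace M]

/-- `F = -w_q/r` -/
noncomputable def fr (r : ℝ) (q z : M) : ℝ := -(r⁻¹) * ww (3 / 2 * r ^ 2) q z

theorem fr_nonneg {r : ℝ} (hr : 0 < r) (q z : M) : 0 ≤ fr r q z := by
  unfold fr
  have h1 : ww (3 / 2 * r ^ 2) q z ≤ 0 := N2.H982.ww_nonpos _ q z
  have h2 : 0 < r⁻¹ := inv_pos.2 hr
  nlinarith

theorem fr_le {r : ℝ} (hr : 0 < r) (q z : M) : fr r q z ≤ 3 / 2 * r := by
  unfold fr
  have h1 : -(3 / 2 * r ^ 2) ≤ ww (3 / 2 * r ^ 2) q z := N2.H982.ww_ge (by positivity) q z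
  have h2 : 0 < r⁻¹ := inv_pos.2 hr
  have h3 : r⁻¹ * (3 / 2 * r ^ 2) = 3 / 2 * r := by field_simp
  nlinarith

theorem abs_fr_le {r : ℝ} (hr : 0 < r) (q z : M) : |fr r q z| ≤ 3 / 2 * r := by
  rw [abs_of_nonneg (fr_nonneg hr q z)]
  exact fr_le hr q z

theorem abs_fr_sub {r : ℝ} (hr : 0 < r) (q z z' : M) :
    |fr r q z - fr r q z'| ≤ 2 * dist z z' := by
  have h1 := N2.H982.abs_ww_sub (δ := 3 / 2 * r ^ 2) (by positivity) q z z'
  have h2 : √(2 * (3 / 2 * r ^ 2)) ≤ 2 * r := by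
    rw [Real.sqrt_le_left (by positivity)]
    nlinarith
  have e : fr r q z - fr r q z'
      = -(r⁻¹) * (ww (3 / 2 * r ^ 2) q z - ww (3 / 2 * r ^ 2) q z') := by
    unfold fr; ring
  rw [e, abs_mul, abs_neg, abs_of_pos (inv_pos.2 hr)]
  calc r⁻¹ * |ww (3 / 2 * r ^ 2) q z - ww (3 / 2 * r ^ 2) q z'|
      ≤ r⁻¹ * (2 * r * dist z z') := by
        refine mul_le_mul_of_nonneg_left (h1.trans ?_) (inv_pos.2 hr).le
        exact mul_le_mul_of_nonneg_right h2 dist_nonneg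
    _ = 2 * dist z z' := by field_simp

theorem fr_cont {r : ℝ} (hr : 0 < r) (q : M) : Continuous (fr r q) := by
  have : LipschitzWith 2 (fr r q) := by
    refine LipschitzWith.of_dist_le_mul fun x x' => ?_
    rw [Real.dist_eq]
    exact abs_fr_sub hr q x x'
  exact this.continuous

/-- the expansion: if `d(q,z) = r - e` then `F(z) = r + e - e²/(2r)` -/
theorem fr_expand {r e : ℝ} (hr : 0 < r) (he : |e| ≤ r / 2) {q z : M} (h : dist q z = r - e) :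
    fr r q z = r + e - e ^ 2 / (2 * r) := by
  have h1 : gg q z = (r - e) ^ 2 / 2 := by
    unfold gg
    rw [dist_comm, h]
  have h2 : gg q z < 3 / 2 * r ^ 2 := by
    rw [h1]
    rw [abs_le] at he
    nlinarith
  unfold fr
  rw [N2.H982.ww_of_lt h2, h1]
  field_simp
  ring

end metric

section cls

variable {M : Type u} [MetricSpace M] [CompleteSpace M] [SecondCountableTopology M]
  [MeasurableSpace M] [BorelSpace M] {m : Measure M} {n : ℕ} {K : ℝ} {θ : M → ℝ}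

/-- the class of `F` -/
noncomputable def Fr (m : Measure M) (r : ℝ) (q : M) : M →ₘ[m] ℝ :=
  (-(r⁻¹)) • cl m (ww (3 / 2 * r ^ 2) q)

theorem Fr_ae {r : ℝ} (hr : 0 < r) (q : M) : ∀ᵐ z ∂m, Fr m r q z = fr r q z := by
  filter_upwards [smul_ae (cl m (ww (3 / 2 * r ^ 2) q)) (-(r⁻¹)),
    N2.H982.ww_ae (m := m) (δ := 3 / 2 * r ^ 2) (by positivity) q] with z h1 h2
  unfold Fr fr
  rw [h1, h2]

variable (h : N2.RA.NSp m n K θ)
include h

theorem Fr_A {r : ℝ} (hr : 0 < r) (q : M) : Fr m r q ∈ (sob m).A := by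
  have hA := N2.H982.ww_A (m := m) h.fin (δ := 3 / 2 * r ^ 2) (by positivity) q
  exact ⟨h.isDir.smul_mem _ _ hA.1, mem_smul _ hA.2⟩

theorem Fr_mem2 {r : ℝ} (hr : 0 < r) (q : M) : MemLp (Fr m r q) 2 m :=
  h.isDir.memLp _ (Fr_A h hr q).1

theorem Γ_Fr {r : ℝ} (hr : 0 < r) (q : M) :
    (sob m).Γ (Fr m r q) (Fr m r q)
      = (r⁻¹) ^ 2 • (sob m).Γ (cl m (ww (3 / 2 * r ^ 2) q)) (cl m (ww (3 / 2 * r ^ 2) q)) := by
  have hA := N2.H982.ww_A (m := m) h.fin (δ := 3 / 2 * r ^ 2) (by positivity) q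
  have hD := h.isDir
  unfold Fr
  rw [hD.smul_left _ _ hA.1 _ (hD.smul_mem _ _ hA.1), hD.Γ_smul_right _ hA.1 hA.1, smul_smul]
  congr 1
  ring

theorem Γ_Fr_le {r : ℝ} (hr : 0 < r) (q : M) :
    ∀ᵐ z ∂m, (sob m).Γ (Fr m r q) (Fr m r q) z ≤ 3 := by
  rw [Γ_Fr h hr q]
  filter_upwards [smul_ae ((sob m).Γ (cl m (ww (3 / 2 * r ^ 2) q)) (cl m (ww (3 / 2 * r ^ 2) q)))
    ((r⁻¹) ^ 2), N2.H982.Γ_ww_le (m := m) h.fin (δ := 3 / 2 * r ^ 2) (by positivity) q]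
    with z h1 h2
  rw [h1]
  calc (r⁻¹) ^ 2 * (sob m).Γ (cl m (ww (3 / 2 * r ^ 2) q)) (cl m (ww (3 / 2 * r ^ 2) q)) z
      ≤ (r⁻¹) ^ 2 * (2 * (3 / 2 * r ^ 2)) := mul_le_mul_of_nonneg_left h2 (by positivity)
    _ = 3 := by field_simp

theorem Γ_Fr_loc {r : ℝ} (hr : 0 < r) (q : M) :
    ∀ᵐ z ∂m, (sob m).Γ (Fr m r q) (Fr m r q) z ≤ (dist q z / r) ^ 2 := by
  rw [Γ_Fr h hr q]
  filter_upwards [smul_ae ((sob m).Γ (cl m (ww (3 / 2 * r ^ 2) q)) (cl m (ww (3 / 2 * r ^ 2) q)))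
    ((r⁻¹) ^ 2), H992.ww_grad_le (m := m) h.fin (δ := 3 / 2 * r ^ 2) (by positivity) q]
    with z h1 h2
  rw [h1]
  calc (r⁻¹) ^ 2 * (sob m).Γ (cl m (ww (3 / 2 * r ^ 2) q)) (cl m (ww (3 / 2 * r ^ 2) q)) z
      ≤ (r⁻¹) ^ 2 * (2 * gg q z) := mul_le_mul_of_nonneg_left h2 (by positivity)
    _ = (dist q z / r) ^ 2 := by
      unfold gg
      rw [dist_comm q z]
      field_simp

theorem Γ_Fr_top {r : ℝ} (hr : 0 < r) (q : M) :
    MemLp ((sob m).Γ (Fr m r q) (Fr m r q)) ∞ m := by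
  rw [mem_top_iff]
  refine ⟨3, ?_⟩
  filter_upwards [Γ_Fr_le h hr q, h.isDir.Γ_nonneg_ae (Fr_A h hr q).1] with z h1 h2
  rw [abs_of_nonneg h2]
  exact h1

/-- lower bound of the Laplacian of `P_t F` -/
theorem lap_Fr_ge {r : ℝ} (hr : 0 < r) (q : M) {t : ℝ} (ht : 0 < t) :
    ∀ᵐ z ∂m, -((n + |K| * r ^ 2) / r) ≤ (sob m).lap ((sob m).P t (Fr m r q)) z := by
  have hD := h.isDir
  have hδ : 0 < 3 / 2 * r ^ 2 := by positivity
  have hA := N2.H982.ww_A (m := m) h.fin hδ.le q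
  have hw2 := hD.memLp _ hA.1
  have ha2 : MemLp (cl m (H992.aa n K (3 / 2 * r ^ 2) q)) 2 m := H992.aa_mem h.fin hδ.le q 2
  have e : (sob m).lap ((sob m).P t (Fr m r q))
      = (-(r⁻¹)) • (sob m).lap ((sob m).P t (cl m (ww (3 / 2 * r ^ 2) q))) := by
    unfold Fr
    rw [hD.P_smul t _ hw2]
    exact hD.lap_eq (hD.isLap_smul _ (hD.P_isLap ht hw2))
  have hb : ∀ᵐ z ∂m, |cl m (H992.aa n K (3 / 2 * r ^ 2) q) z| ≤ n + |K| * r ^ 2 := by
    filter_upwards [H992.aa_ae (m := m) (n := n) (K := K) (δ := 3 / 2 * r ^ 2) q] with z hz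
    rw [hz]
    refine (H992.abs_aa_le n K hδ.le q z).trans (le_of_eq ?_)
    ring
  rw [e]
  filter_upwards [smul_ae ((sob m).lap ((sob m).P t (cl m (ww (3 / 2 * r ^ 2) q)))) (-(r⁻¹)),
    le_iff_ae.1 (H992.lap_P_ww_le h hδ q ht), hD.P_bdd ht.le ha2 hb] with z h1 h2 h3
  rw [h1]
  have h4 := h2.trans ((le_abs_self _).trans h3)
  have h5 : 0 < r⁻¹ := inv_pos.2 hr
  have h6 := mul_le_mul_of_nonneg_left h4 h5.le
  rw [div_eq_mul_inv]
  linarith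

end cls

end Vale.Agent.P242.H446
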