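import Vale.Agent.P242.H446.PreDef
import Vale.Agent.P242.H446.Num
import Vale.Agent.P242.H757.IsoDens
import Vale.Agent.P242.H757.Geo

/-! P242, package A-MAPS (helper446), part 9: stage 1. -/

set_option linter.all false

open MeasureTheory Filter Topology Set Metric
open scoped ENNReal NNReal InnerProductSpace

universe u

namespace Vale.Agent.P242.H446

open Vale.Agent.P233 Vale.Agent.P233.RA Vale.Agent.P242.H520 Vale.Agent.P242.H990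
open Vale.Agent.P242.H71 (E Env Cfg HypL PP gm gam uc Gm)

/-- the geometric data -/
structure GeoD {M : Type u} [MetricSpace M] (n : ℕ) (o : M) (Q L η₁ ρ : ℝ) (φ : M → E n) : Prop where
  zero : φ o = 0
  iso : ∀ y ∈ ball o (2 * L * ρ), ∀ z ∈ ball o (2 * L * ρ),
    |dist (φ y) (φ z) - dist y z| ≤ η₁ * ρ
  dens : ∀ w : E n, ‖w‖ < 2 * L * ρ → ∃ y ∈ ball o (2 * L * ρ), dist (φ y) w ≤ η₁ * ρ
  far : ∀ ξ : E n, ‖ξ‖ = 1 → ∃ q : M, |dist q o - L * ρ| ≤ η₁ * ρ ∧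
    ∀ z ∈ ball o (Q * ρ), |dist q z - (L * ρ - ⟪ξ, φ z⟫_ℝ)| ≤ η₁ * ρ

/-- `q` is a far point in the direction `-ξ` -/
def FarP {M : Type u} [MetricSpace M] {n : ℕ} (o : M) (Q L η₁ ρ : ℝ) (φ : M → E n) (ξ : E n)
    (q : M) : Prop :=
  ∀ z ∈ ball o (Q * ρ), |dist q z - (L * ρ - ⟪ξ, φ z⟫_ℝ)| ≤ η₁ * ρ

variable {M : Type u} [MetricSpace M]

theorem fr_lin {n : ℕ} {o : M} {Q L η₁ ρ : ℝ} {φ : M → E n} (hρ : 0 < ρ) (hQ : 0 ≤ Q)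
    (hη : 0 < η₁) (hη1 : η₁ ≤ 1) (hL : 4 * (Q + 1) ^ 2 = η₁ * L) (G : GeoD n o Q L η₁ ρ φ)
    {ξ : E n} (hξ : ‖ξ‖ = 1) {q : M} (hq : FarP o Q L η₁ ρ φ ξ q) {z : M}
    (hz : z ∈ ball o (Q * ρ)) :
    |fr (L * ρ) q z - (L * ρ + ⟪ξ, φ z⟫_ℝ)| ≤ 2 * η₁ * ρ ∧ dist q z / (L * ρ) ≤ 1 + (Q + 2) / L := by
  have hL0 : 0 < L := by
    have : 0 < η₁ * L := by rw [← hL]; positivity
    exact (mul_pos_iff_of_pos_left hη).1 this
  have hL1 : 4 * (Q + 1) ^ 2 ≤ L := by rw [hL]; nlinarith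
  have hL2 : 2 * (Q + 2) ≤ L := by nlinarith
  have hr : 0 < L * ρ := by positivity
  have hηρ : η₁ * ρ ≤ ρ := by nlinarith
  have hz' : dist z o < Q * ρ := hz
  have hφ : ‖φ z‖ ≤ (Q + 1) * ρ := by
    have h1 := G.iso z (ball_subset_ball (by nlinarith) hz) o (mem_ball_self (by positivity))
    rw [G.zero, dist_zero_right, abs_le] at h1
    nlinarith [h1.2]
  have h2 : |⟪ξ, φ z⟫_ℝ| ≤ (Q + 1) * ρ := by
    have := abs_real_inner_le_norm ξ (φ z)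
    rw [hξ, one_mul] at this
    exact this.trans hφ
  have h3 := hq z hz
  have h4 := abs_le.1 h2
  have h5 := abs_le.1 h3
  obtain ⟨e, he⟩ : ∃ e, e = L * ρ - dist q z := ⟨_, rfl⟩
  have he1 : dist q z = L * ρ - e := by rw [he]; ring
  have he2 : |e| ≤ (Q + 2) * ρ := by
    rw [abs_le, he]
    constructor <;> nlinarith
  have he3 : |e| ≤ L * ρ / 2 := he2.trans (by nlinarith)
  have h6 := fr_expand hr he3 he1
  have h7 : e ^ 2 / (2 * (L * ρ)) ≤ η₁ * ρ := by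
    rw [div_le_iff₀ (by positivity)]
    have h8 : e ^ 2 ≤ ((Q + 2) * ρ) ^ 2 := by
      rw [← sq_abs]
      exact pow_le_pow_left₀ (abs_nonneg _) he2 2
    have h9 : (Q + 2) ^ 2 ≤ 2 * (4 * (Q + 1) ^ 2) := by nlinarith
    calc e ^ 2 ≤ ((Q + 2) * ρ) ^ 2 := h8
      _ = (Q + 2) ^ 2 * ρ ^ 2 := by ring
      _ ≤ (2 * (4 * (Q + 1) ^ 2)) * ρ ^ 2 := mul_le_mul_of_nonneg_right h9 (by positivity)
      _ = 2 * (η₁ * L) * ρ ^ 2 := by rw [hL]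
      _ = _ := by ring
  have h8 : 0 ≤ e ^ 2 / (2 * (L * ρ)) := by positivity
  refine ⟨?_, ?_⟩
  · rw [h6, abs_le]
    constructor <;> nlinarith [he]
  · rw [div_le_iff₀ hr, he1]
    have e1 : (1 + (Q + 2) / L) * (L * ρ) = L * ρ + (Q + 2) * ρ := by field_simp
    rw [e1]
    have := (abs_le.1 he2).1
    linarith

variable [CompleteSpace M] [SecondCountableTopology M]
  [MeasurableSpace M] [BorelSpace M] {m : Measure M} {n : ℕ} {K : ℝ} {θ₀ : M → ℝ}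
  {p : ℝ → M → M → ℝ}

section tail

variable {Cm Ct S R σ θ η₁ Q L τ ρ : ℝ}

theorem tail_le (hT : TailB m p Ct) (hCt : 0 ≤ Ct) (hS : 0 ≤ S) (hQ : 0 ≤ Q)
    (N : Num n Cm Ct S R σ θ η₁ Q L τ) (N' : NumR K L S R σ ρ) (x : M) {s : ℝ} (hs : 0 < s)
    (hs1 : s ≤ (S + 1) * ρ ^ 2) : ∫ w in {w | Q * ρ / 2 ≤ dist x w}, p s x w ∂m ≤ τ := by
  have hρ := N'.ρ_pos
  refine (hT s hs (hs1.trans (N'.k2.trans (by norm_num))) x (Q * ρ / 2) (by positivity)).trans ?_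
  rw [N.τ_eq]
  refine mul_le_mul_of_nonneg_left (Real.exp_le_exp.2 (neg_le_neg ?_)) hCt
  rw [div_le_div_iff₀ (by positivity) (by positivity)]
  calc Q ^ 2 * (32 * s) ≤ Q ^ 2 * (32 * ((S + 1) * ρ ^ 2)) := by gcongr
    _ = (Q * ρ / 2) ^ 2 * (128 * (S + 1)) := by ring

end tail

section est

variable (h : N2.RA.NSp m n K θ₀) (hBE : (sob m).BE K n) (hp : Ker0 m p)
  {Cm Ct S R σ θ η₁ Q L τ ρ : ℝ} {o : M} {φ : M → E n}

include h hBE hp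

theorem lap_est (hT : TailB m p Ct) (hCt : 0 ≤ Ct) (hS : 0 ≤ S) (hR : 0 ≤ R) (hσ1 : σ ≤ 1)
    (N : Num n Cm Ct S R σ θ η₁ Q L τ) (N' : NumR K L S R σ ρ) (G : GeoD n o Q L η₁ ρ φ)
    {ξ : E n} (hξ : ‖ξ‖ = 1) {q₁ q₂ : M} (hq₁ : FarP o Q L η₁ ρ φ ξ q₁)
    (hq₂ : FarP o Q L η₁ ρ φ (-ξ) q₂) {x : M} (hx : x ∈ ball o (Q * ρ / 2)) {s ϑ : ℝ} (hs : 0 < s)
    (hϑ : 0 < ϑ) (hϑ1 : ϑ ≤ 1) (hst : s + ϑ * ρ ^ 2 ≤ (S + 1) * ρ ^ 2) :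
    pt m p s (fun z => (sob m).lap ((sob m).P (ϑ * ρ ^ 2) (Fr m (L * ρ) q₁)) z ^ 2) x ≤
      (2 * ((n + 1) / L) ^ 2 + 32 * n / ϑ ^ 2 * (16 * η₁ ^ 2 + 4 * L ^ 2 * τ)) / ρ ^ 2 := by
  have hρ := N'.ρ_pos
  have hη := N.η_pos
  have hQ : 0 ≤ Q := by have := N.Q_ge; linarith
  have hL0 : 0 < L := by
    have : 0 < η₁ * L := by rw [← N.L_eq]; positivity
    exact (mul_pos_iff_of_pos_left hη).1 this
  have hr : 0 < L * ρ := by positivity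
  have hτ0 : 0 ≤ τ := by rw [N.τ_eq]; positivity
  have ht : 0 < ϑ * ρ ^ 2 := by positivity
  have key := lap_avg h hBE hp hr ht hs (q₁ := q₁) (q₂ := q₂) (x := x) (g := 4 * η₁ * ρ) (τ := τ)
    (R' := Q * ρ / 2) ?_ (tail_le hT hCt hS hQ N N' x (by positivity) hst)
  · refine key.trans ?_
    have b1 : (n + |K| * (L * ρ) ^ 2) / (L * ρ) ≤ (n + 1) / L / ρ := by
      rw [div_div]
      gcongr
      exact N'.k1
    have b1' : ((n + |K| * (L * ρ) ^ 2) / (L * ρ)) ^ 2 ≤ ((n + 1) / L) ^ 2 / ρ ^ 2 := by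
      rw [← div_pow]
      exact pow_le_pow_left₀ (by positivity) b1 2
    have b2 : Real.exp (2 * |K| * (ϑ * ρ ^ 2)) ≤ 2 := by
      refine (Real.exp_le_exp.2 ?_).trans (N'.k5.trans (by linarith))
      have : 0 ≤ 2 * |K| * ρ ^ 2 := by positivity
      nlinarith
    have b3 : 2 * (8 * n * Real.exp (2 * |K| * (ϑ * ρ ^ 2)) / (ϑ * ρ ^ 2) ^ 2) *
        ((4 * η₁ * ρ) ^ 2 + (2 * (L * ρ)) ^ 2 * τ) ≤
        32 * n / ϑ ^ 2 * (16 * η₁ ^ 2 + 4 * L ^ 2 * τ) / ρ ^ 2 := by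
      calc 2 * (8 * n * Real.exp (2 * |K| * (ϑ * ρ ^ 2)) / (ϑ * ρ ^ 2) ^ 2) *
            ((4 * η₁ * ρ) ^ 2 + (2 * (L * ρ)) ^ 2 * τ)
          ≤ 2 * (8 * n * 2 / (ϑ * ρ ^ 2) ^ 2) *
            ((4 * η₁ * ρ) ^ 2 + (2 * (L * ρ)) ^ 2 * τ) := by gcongr
        _ = _ := by field_simp; ring
    calc 2 * ((n + |K| * (L * ρ) ^ 2) / (L * ρ)) ^ 2 +
          2 * (8 * n * Real.exp (2 * |K| * (ϑ * ρ ^ 2)) / (ϑ * ρ ^ 2) ^ 2) *
          ((4 * η₁ * ρ) ^ 2 + (2 * (L * ρ)) ^ 2 * τ)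
        ≤ 2 * (((n + 1) / L) ^ 2 / ρ ^ 2) +
          32 * n / ϑ ^ 2 * (16 * η₁ ^ 2 + 4 * L ^ 2 * τ) / ρ ^ 2 :=
          add_le_add (mul_le_mul_of_nonneg_left b1' two_pos.le) b3
      _ = _ := by ring
  · intro z hz
    have hzb : z ∈ ball o (Q * ρ) := by
      rw [mem_ball] at hx ⊢
      calc dist z o ≤ dist x z + dist x o := by
            rw [dist_comm x z]; exact dist_triangle _ _ _
        _ < Q * ρ := by linarith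
    have e1 := (fr_lin hρ hQ hη N.η_le N.L_eq G hξ hq₁ hzb).1
    have e2 := (fr_lin hρ hQ hη N.η_le N.L_eq G (by rw [norm_neg]; exact hξ) hq₂ hzb).1
    rw [inner_neg_left] at e2
    rw [abs_le] at e1 e2 ⊢
    constructor <;> nlinarith

end est

end Vale.Agent.P242.H446
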