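import Vale.Agent.P242.H446.St1

/-! P242, package A-MAPS (helper446), part 10: stage 1, second half. -/

set_option linter.all false

open MeasureTheory Filter Topology Set Metric
open scoped ENNReal NNReal InnerProductSpace

universe u

namespace Vale.Agent.P242.H446

open Vale.Agent.P233 Vale.Agent.P233.RA Vale.Agent.P242.H520 Vale.Agent.P242.H990
open Vale.Agent.P242.H71 (E Env Cfg HypL PP gm gam uc Gm)

variable {M : Type u} [MetricSpace M] [CompleteSpace M] [SecondCountableTopology M]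
  [MeasurableSpace M] [BorelSpace M] {m : Measure M} {n : ℕ} {K : ℝ} {θ₀ : M → ℝ}
  {p : ℝ → M → M → ℝ}

theorem P_sum {C : Calc m} (hD : IsDir C) (t : ℝ) {F : Fin n → M →ₘ[m] ℝ}
    (hF : ∀ i, MemLp (F i) 2 m) (c : Fin n → ℝ) (s : Finset (Fin n)) :
    MemLp (∑ i ∈ s, c i • F i : M →ₘ[m] ℝ) 2 m ∧
      C.P t (∑ i ∈ s, c i • F i) = ∑ i ∈ s, c i • C.P t (F i) := by
  classical
  induction s using Finset.induction_on with
  | empty =>
    rw [Finset.sum_empty, Finset.sum_empty]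
    exact ⟨mem_zero, hD.P_zero t⟩
  | insert i s hi ih =>
    rw [Finset.sum_insert hi, Finset.sum_insert hi, ← ih.2, ← hD.P_smul t (c i) (hF i)]
    exact ⟨mem_add (mem_smul _ (hF i)) ih.1, hD.P_add t (mem_smul _ (hF i)) ih.1⟩

section est

variable (h : N2.RA.NSp m n K θ₀) (hBE : (sob m).BE K n) (hp : Ker0 m p)
  {Cm Ct S R σ θ η₁ Q L τ ρ : ℝ} {o : M} {φ : M → E n}

include h hBE hp

theorem lap1_est (hT : TailB m p Ct) (hCt : 0 ≤ Ct) (hS : 0 ≤ S) (hR : 0 ≤ R) (hσ : 0 < σ)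
    (hσ1 : σ ≤ 1)
    (N : Num n Cm Ct S R σ θ η₁ Q L τ) (N' : NumR K L S R σ ρ) (G : GeoD n o Q L η₁ ρ φ)
    {ξ : E n} (hξ : ‖ξ‖ = 1) {q₁ : M} (hq₁ : FarP o Q L η₁ ρ φ ξ q₁)
    {x : M} (hx : x ∈ ball o (R * ρ)) {s : ℝ} (hs : 0 < s) (hs1 : s ≤ S * ρ ^ 2) :
    pt m p s ((sob m).lap ((sob m).P (θ * ρ ^ 2) (Fr m (L * ρ) q₁)) ^ 2 : M →ₘ[m] ℝ) x
      ≤ (σ / ρ) ^ 2 := by
  have hρ := N'.ρ_pos
  have hθ := N.θ_pos
  have hθ1 := N.θ_le
  have hη := N.η_pos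
  have hQ : 0 ≤ Q := by have := N.Q_ge; linarith
  have hτ0 : 0 ≤ τ := by rw [N.τ_eq]; positivity
  have hx' : x ∈ ball o (Q * ρ / 2) := by
    refine ball_subset_ball ?_ hx
    have := N.Q_ge
    nlinarith
  obtain ⟨q₂, -, hq₂⟩ := G.far (-ξ) (by rw [norm_neg]; exact hξ)
  have hst : s + θ * ρ ^ 2 ≤ (S + 1) * ρ ^ 2 := by
    have : θ * ρ ^ 2 ≤ 1 * ρ ^ 2 := mul_le_mul_of_nonneg_right hθ1 (by positivity)
    linarith
  have key := lap_est h hBE hp hT hCt hS hR hσ1 N N' G hξ hq₁ hq₂ hx' hs hθ hθ1 hst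
  have e : pt m p s ((sob m).lap ((sob m).P (θ * ρ ^ 2) (Fr m (L * ρ) q₁)) ^ 2 : M →ₘ[m] ℝ) x
      = pt m p s (fun z => (sob m).lap ((sob m).P (θ * ρ ^ 2) (Fr m (L * ρ) q₁)) z ^ 2) x := by
    refine pt_congr hp ?_ s x
    filter_upwards [sq_ae ((sob m).lap ((sob m).P (θ * ρ ^ 2) (Fr m (L * ρ) q₁)))] with z hz
    exact hz
  rw [e]
  refine key.trans ?_
  rw [div_pow σ ρ]
  refine div_le_div_of_nonneg_right ?_ (sq_nonneg ρ)
  have e2 := N.e2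
  have hb0 : 0 ≤ 16 * η₁ ^ 2 + 4 * L ^ 2 * τ := by positivity
  have h1 : 32 * n / θ ^ 2 * (16 * η₁ ^ 2 + 4 * L ^ 2 * τ)
      ≤ 128 * n / θ ^ 2 * (16 * η₁ ^ 2 + 4 * L ^ 2 * τ) := by
    refine mul_le_mul_of_nonneg_right ?_ hb0
    refine div_le_div_of_nonneg_right ?_ (by positivity)
    have : (0 : ℝ) ≤ n := n.cast_nonneg
    linarith
  have h2 : θ * σ ^ 2 / 2 ≤ σ ^ 2 := by nlinarith [sq_nonneg σ]
  linarith

theorem lap2_est (hT : TailB m p Ct) (hCt : 0 ≤ Ct) (hS : 0 ≤ S) (hR : 0 ≤ R) (hσ : 0 < σ)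
    (hσ1 : σ ≤ 1)
    (N : Num n Cm Ct S R σ θ η₁ Q L τ) (N' : NumR K L S R σ ρ) (G : GeoD n o Q L η₁ ρ φ)
    {ξ : E n} (hξ : ‖ξ‖ = 1) {q₁ : M} (hq₁ : FarP o Q L η₁ ρ φ ξ q₁)
    {x : M} (hx : x ∈ ball o (R * ρ)) {s : ℝ} (hs : 0 < s) (hs1 : s ≤ S * ρ ^ 2) :
    pt m p s ((sob m).Γ ((sob m).lap ((sob m).P (θ * ρ ^ 2) (Fr m (L * ρ) q₁)))
      ((sob m).lap ((sob m).P (θ * ρ ^ 2) (Fr m (L * ρ) q₁)))) x ≤ (σ / ρ ^ 2) ^ 2 := by
  have hρ := N'.ρ_pos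
  have hθ := N.θ_pos
  have hθ1 := N.θ_le
  have hη := N.η_pos
  have hQ : 0 ≤ Q := by have := N.Q_ge; linarith
  have hL0 : 0 < L := by
    have : 0 < η₁ * L := by rw [← N.L_eq]; positivity
    exact (mul_pos_iff_of_pos_left hη).1 this
  have hr : 0 < L * ρ := by positivity
  have hτ0 : 0 ≤ τ := by rw [N.τ_eq]; positivity
  have hx' : x ∈ ball o (Q * ρ / 2) := by
    refine ball_subset_ball ?_ hx
    have := N.Q_ge
    nlinarith
  obtain ⟨q₂, -, hq₂⟩ := G.far (-ξ) (by rw [norm_neg]; exact hξ)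
  have ht : 0 < θ * ρ ^ 2 := by positivity
  have et : θ * ρ ^ 2 / 2 = θ / 2 * ρ ^ 2 := by ring
  have hst : s + θ * ρ ^ 2 / 2 + θ / 2 * ρ ^ 2 ≤ (S + 1) * ρ ^ 2 := by
    have : θ * ρ ^ 2 ≤ 1 * ρ ^ 2 := mul_le_mul_of_nonneg_right hθ1 (by positivity)
    linarith
  have key := lap_est h hBE hp hT hCt hS hR hσ1 N N' G hξ hq₁ hq₂ hx'
    (s := s + θ * ρ ^ 2 / 2) (ϑ := θ / 2) (by positivity) (by positivity) (by linarith) hst
  have hD : pt m p (s + θ * ρ ^ 2 / 2)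
      (fun z => (sob m).lap ((sob m).P (θ * ρ ^ 2 / 2) (Fr m (L * ρ) q₁)) z ^ 2) x
      ≤ θ * σ ^ 2 / 2 / ρ ^ 2 := by
    rw [← et] at key
    refine key.trans (div_le_div_of_nonneg_right ?_ (by positivity))
    have e2 := N.e2
    have e3 : 32 * n / (θ / 2) ^ 2 = 128 * n / θ ^ 2 := by field_simp; ring
    rw [e3]
    exact e2
  refine (grad_lap_avg h hBE hp hr ht hs q₁ x hD).trans ?_
  have b2 : Real.exp (|K| * (θ * ρ ^ 2)) ≤ 2 := by
    refine (Real.exp_le_exp.2 ?_).trans (N'.k5.trans (by linarith))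
    have : 0 ≤ |K| * ρ ^ 2 := by positivity
    nlinarith
  calc Real.exp (|K| * (θ * ρ ^ 2)) / (θ * ρ ^ 2) * (θ * σ ^ 2 / 2 / ρ ^ 2)
      ≤ 2 / (θ * ρ ^ 2) * (θ * σ ^ 2 / 2 / ρ ^ 2) := by gcongr
    _ = (σ / ρ ^ 2) ^ 2 := by field_simp

theorem grad_est (hT : TailB m p Ct) (hCt : 0 ≤ Ct) (hS : 0 ≤ S) (hR : 0 ≤ R) (hσ : 0 < σ)
    (hσ1 : σ ≤ 1)
    (N : Num n Cm Ct S R σ θ η₁ Q L τ) (N' : NumR K L S R σ ρ) (G : GeoD n o Q L η₁ ρ φ)
    {q : Fin n → M} (hq : ∀ i, FarP o Q L η₁ ρ φ (EuclideanSpace.single i 1) (q i)) {c : E n}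
    (hc : ‖c‖ = 1) :
    ∀ᵐ z ∂m, z ∈ ball o (Q * ρ / 2) →
      (sob m).Γ (∑ i, c i • (sob m).P (θ * ρ ^ 2) (Fr m (L * ρ) (q i)))
        (∑ i, c i • (sob m).P (θ * ρ ^ 2) (Fr m (L * ρ) (q i))) z ≤ 1 + σ := by
  have hρ := N'.ρ_pos
  have hθ := N.θ_pos
  have hθ1 := N.θ_le
  have hη := N.η_pos
  have hQ : 0 ≤ Q := by have := N.Q_ge; linarith
  have hL0 : 0 < L := by
    have : 0 < η₁ * L := by rw [← N.L_eq]; positivity
    exact (mul_pos_iff_of_pos_left hη).1 this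
  have hr : 0 < L * ρ := by positivity
  have hτ0 : 0 ≤ τ := by rw [N.τ_eq]; positivity
  have ht : 0 < θ * ρ ^ 2 := by positivity
  have hD := h.isDir
  obtain ⟨q₀, -, hq₀⟩ := G.far c hc
  have hc1 : ∀ i, |c i| ≤ 1 := fun i => by
    have := EuclideanSpace.norm_eq c
    have h1 : c i ^ 2 ≤ ‖c‖ ^ 2 := by
      rw [EuclideanSpace.norm_sq_eq]
      calc c i ^ 2 = ‖c i‖ ^ 2 := by rw [Real.norm_eq_abs, sq_abs]
        _ ≤ ∑ j, ‖c j‖ ^ 2 := Finset.single_le_sum (f := fun j => ‖c j‖ ^ 2)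
            (fun j _ => sq_nonneg _) (Finset.mem_univ i)
    rw [hc, one_pow] at h1
    exact (sq_le_one_iff_abs_le_one _).1 h1
  have hsum : ∀ {f : Fin n → ℝ} {B : ℝ}, (∀ i, |f i| ≤ B) → |∑ i, c i * f i| ≤ n * B := by
    intro f B hf
    calc |∑ i, c i * f i| ≤ ∑ i, |c i * f i| := Finset.abs_sum_le_sum_abs _ _
      _ ≤ ∑ _i : Fin n, B := Finset.sum_le_sum fun i _ => by
          rw [abs_mul]
          have h0 : 0 ≤ |f i| := abs_nonneg _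
          nlinarith [hc1 i, hf i, abs_nonneg (c i)]
      _ = n * B := by simp
  have hin : ∀ w : E n, ∑ i, c i * ⟪(EuclideanSpace.single i 1 : E n), w⟫_ℝ = ⟪c, w⟫_ℝ := by
    intro w
    simp only [EuclideanSpace.inner_single_left, map_one, one_mul]
    rw [PiLp.inner_apply]
    refine Finset.sum_congr rfl fun i _ => ?_
    simp [mul_comm]
  have hn1 : (0 : ℝ) ≤ n := n.cast_nonneg
  have key := grad_up h hBE hp hr ht (fun i => c i) q q₀ (B := ball o (Q * ρ / 2))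
    (R' := Q * ρ / 2) (g := (n + 1) * (2 * η₁ * ρ)) (b := (n + 1) * (L * ρ))
    (c' := (∑ i, c i - 1) * (L * ρ)) (ℓ := 1 + (Q + 2) / L) (τ := τ) (β := σ / 8) (by positivity)
    ?_ ?_ ?_ ?_
  · have e1 := (P_sum hD (θ * ρ ^ 2) (fun i => Fr_mem2 h hr (q i)) (fun i => c i) Finset.univ).2
    rw [e1] at key
    filter_upwards [key] with z hz hzb
    refine (hz hzb).trans (le_trans ?_ N.e3)
    have b0 : 2 * |K| * (θ * ρ ^ 2) ≤ 2 * |K| * ρ ^ 2 := by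
      have : 0 ≤ 2 * |K| * ρ ^ 2 := by positivity
      nlinarith
    have b1 : Real.exp (2 * |K| * (θ * ρ ^ 2)) ≤ 1 + σ / 8 :=
      (Real.exp_le_exp.2 b0).trans N'.k5
    have b2 : Real.exp (2 * |K| * (θ * ρ ^ 2)) ≤ 2 := b1.trans (by linarith)
    have e2 : (σ / 8)⁻¹ = 8 / σ := by rw [inv_div]
    rw [e2]
    refine add_le_add ?_ ?_
    · gcongr
    · refine mul_le_mul_of_nonneg_left ?_ (by positivity)
      calc Real.exp (2 * |K| * (θ * ρ ^ 2)) / (2 * (θ * ρ ^ 2)) *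
            (((n + 1) * (2 * η₁ * ρ)) ^ 2 + ((n + 1) * (L * ρ)) ^ 2 * τ)
          ≤ 2 / (2 * (θ * ρ ^ 2)) *
            (((n + 1) * (2 * η₁ * ρ)) ^ 2 + ((n + 1) * (L * ρ)) ^ 2 * τ) := by gcongr
        _ = _ := by field_simp; ring
  · intro z hz w hw
    have hwb : w ∈ ball o (Q * ρ) := by
      rw [mem_ball] at hz ⊢
      calc dist w o ≤ dist z w + dist z o := by
            rw [dist_comm z w]; exact dist_triangle _ _ _
        _ < Q * ρ := by linarith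
    have e2 := (fr_lin hρ hQ hη N.η_le N.L_eq G hc hq₀ hwb).1
    have e3 : |∑ i, c i * (fr (L * ρ) (q i) w -
        (L * ρ + ⟪(EuclideanSpace.single i 1 : E n), φ w⟫_ℝ))| ≤ n * (2 * η₁ * ρ) :=
      hsum fun i => (fr_lin hρ hQ hη N.η_le N.L_eq G (by simp) (hq i) hwb).1
    have e4 : ∑ i, c i * fr (L * ρ) (q i) w - fr (L * ρ) q₀ w - (∑ i, c i - 1) * (L * ρ)
        = ∑ i, c i * (fr (L * ρ) (q i) w -
          (L * ρ + ⟪(EuclideanSpace.single i 1 : E n), φ w⟫_ℝ))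
          - (fr (L * ρ) q₀ w - (L * ρ + ⟪c, φ w⟫_ℝ)) := by
      have : ∑ i, c i * (fr (L * ρ) (q i) w -
          (L * ρ + ⟪(EuclideanSpace.single i 1 : E n), φ w⟫_ℝ))
          = ∑ i, c i * fr (L * ρ) (q i) w - (∑ i, c i) * (L * ρ) - ⟪c, φ w⟫_ℝ := by
        rw [← hin (φ w), Finset.sum_mul, ← Finset.sum_sub_distrib, ← Finset.sum_sub_distrib]
        exact Finset.sum_congr rfl fun i _ => by ring
      rw [this]; ring
    rw [e4]
    refine (abs_sub _ _).trans ?_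
    calc _ ≤ n * (2 * η₁ * ρ) + 2 * η₁ * ρ := add_le_add e3 e2
      _ = _ := by ring
  · intro w
    have hb : ∀ q' : M, |fr (L * ρ) q' w - L * ρ| ≤ L * ρ := fun q' => by
      rw [abs_le]
      constructor
      · linarith [fr_nonneg hr q' w]
      · linarith [fr_le hr q' w]
    have e3 : |∑ i, c i * (fr (L * ρ) (q i) w - L * ρ)| ≤ n * (L * ρ) := hsum fun i => hb (q i)
    have e4 : ∑ i, c i * fr (L * ρ) (q i) w - fr (L * ρ) q₀ w - (∑ i, c i - 1) * (L * ρ)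
        = ∑ i, c i * (fr (L * ρ) (q i) w - L * ρ) - (fr (L * ρ) q₀ w - L * ρ) := by
      have : ∑ i, c i * (fr (L * ρ) (q i) w - L * ρ)
          = ∑ i, c i * fr (L * ρ) (q i) w - (∑ i, c i) * (L * ρ) := by
        rw [Finset.sum_mul, ← Finset.sum_sub_distrib]
        exact Finset.sum_congr rfl fun i _ => by ring
      rw [this]; ring
    rw [e4]
    refine (abs_sub _ _).trans ?_
    calc _ ≤ n * (L * ρ) + L * ρ := add_le_add e3 (hb q₀)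
      _ = _ := by ring
  · intro z hz w hw
    have hwb : w ∈ ball o (Q * ρ) := by
      rw [mem_ball] at hz ⊢
      calc dist w o ≤ dist z w + dist z o := by
            rw [dist_comm z w]; exact dist_triangle _ _ _
        _ < Q * ρ := by linarith
    exact (fr_lin hρ hQ hη N.η_le N.L_eq G hc hq₀ hwb).2
  · intro z hz
    refine tail_le hT hCt hS hQ N N' z ht ?_
    have : 0 ≤ ρ ^ 2 := by positivity
    nlinarith

/-- the global gradient bound -/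
theorem grad_four {t r : ℝ} (hr : 0 < r) (ht : 0 < t) (hK : Real.exp (2 * |K| * t) ≤ 9 / 8)
    (q : M) : ∀ᵐ z ∂m, (sob m).Γ ((sob m).P t (Fr m r q)) ((sob m).P t (Fr m r q)) z ≤ 4 := by
  have hn : (0 : ℝ) < n := by exact_mod_cast h.n_pos
  have hD := h.isDir
  have hC := h.isGamma
  have hBi := hC.bei hn hBE
  have hA := Fr_A h hr q
  have hΓt := Γ_Fr_top h hr q
  have hΓ2 : MemLp ((sob m).Γ (Fr m r q) (Fr m r q)) 2 m := hD.Γ_mem2 hA.1 hΓt hA.1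
  filter_upwards [le_iff_ae.1 (IsGamma.P_Γ_le_P hC hBi ht.le hA.1 hΓt),
    smul_ae ((sob m).P t ((sob m).Γ (Fr m r q) (Fr m r q))) (Real.exp (-(2 * K * t))),
    hp.rep t ht _ hΓ2] with z a1 a2 a3
  rw [a2, a3] at a1
  have c0 : 0 ≤ pt m p t ((sob m).Γ (Fr m r q) (Fr m r q)) z :=
    pt_nonneg hp ht z (hD.Γ_nonneg_ae hA.1)
  have c1 : pt m p t ((sob m).Γ (Fr m r q) (Fr m r q)) z ≤ 3 := by
    refine (le_abs_self _).trans (pt_bdd hp ht z hΓt.aestronglyMeasurable ?_)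
    filter_upwards [Γ_Fr_le h hr q, hD.Γ_nonneg_ae hA.1] with w h1 h2
    rw [abs_of_nonneg h2]
    exact h1
  have c2 : Real.exp (-(2 * K * t)) ≤ 9 / 8 := by
    refine (Real.exp_le_exp.2 ?_).trans hK
    have := neg_abs_le K
    nlinarith
  have c3 : 0 < Real.exp (-(2 * K * t)) := Real.exp_pos _
  calc _ ≤ Real.exp (-(2 * K * t)) * pt m p t ((sob m).Γ (Fr m r q) (Fr m r q)) z := a1
    _ ≤ 9 / 8 * 3 := mul_le_mul c2 c1 c0 (by norm_num)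
    _ ≤ 4 := by norm_num

end est

end Vale.Agent.P242.H446
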