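import Vale.Agent.P242.H446.St2
import Vale.Agent.P242.H448.Close
import Vale.Agent.P242.H751.KBall

/-! P242, package A-MAPS (helper446), part 11: stage 1, assembly. -/

set_option linter.all false

open MeasureTheory Filter Topology Set Metric
open scoped ENNReal NNReal InnerProductSpace

universe u

namespace Vale.Agent.P242.H446

open Vale.Agent.P233 Vale.Agent.P233.RA Vale.Agent.P242.H520 Vale.Agent.P242.H990
open Vale.Agent.P242.H71 (E Env Cfg HypL PP gm gam uc Gm)

variable {M : Type u} [MetricSpace M] [CompleteSpace M] [SecondCountableTopology M]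
  [MeasurableSpace M] [BorelSpace M] {m : Measure M} {n : ℕ} {K : ℝ} {θ₀ : M → ℝ}
  {p : ℝ → M → M → ℝ}

/-- Gaussian tails -/
theorem exists_tail (h : CD.Hyp m n K) (hp : Ker0 m p) : ∃ Ct, 0 ≤ Ct ∧ TailB m p Ct := by
  obtain ⟨C, hC, hb⟩ := H751.tail_cd h hp 0 le_rfl
  refine ⟨C, by linarith, fun s hs hs1 x R hR => ?_⟩
  have := (hb s hs hs1 x R hR).2
  simpa using this

/-- first moments -/
theorem exists_mom (h : CD.Hyp m n K) (hp : Ker0 m p) : ∃ Cm, 0 ≤ Cm ∧ MomB m p Cm := by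
  obtain ⟨C, hC, hb⟩ := H751.tail_cd h hp 1 zero_le_one
  refine ⟨C, by linarith, fun s hs hs1 x => ?_⟩
  obtain ⟨h1, h2⟩ := hb s hs hs1 x 0 le_rfl
  have hss : 0 < √s := Real.sqrt_pos.2 hs
  have e : {w : M | (0 : ℝ) ≤ dist x w} = univ := by
    ext w; simp
  rw [e, Measure.restrict_univ] at h2
  have h3 : C * Real.exp (-(0 ^ 2 / (32 * s))) = C := by simp
  rw [h3] at h2
  have hle : ∀ w, p s x w * dist x w ≤ √s * (p s x w * Real.exp (1 * (dist x w / √s))) := by
    intro w
    have h0 := hp.nonneg s hs x w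
    have h4 : dist x w / √s ≤ Real.exp (1 * (dist x w / √s)) := by
      rw [one_mul]
      have := Real.add_one_le_exp (dist x w / √s)
      linarith
    have h5 : dist x w ≤ √s * Real.exp (1 * (dist x w / √s)) := by
      rw [div_le_iff₀ hss] at h4
      linarith
    calc p s x w * dist x w ≤ p s x w * (√s * Real.exp (1 * (dist x w / √s))) :=
          mul_le_mul_of_nonneg_left h5 h0
      _ = _ := by ring
  have hi : Integrable (fun w => p s x w * dist x w) m := by
    refine (h1.const_mul (√s)).mono' ?_ (Eventually.of_forall fun w => ?_)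
    · exact ((hp.int s hs x).aestronglyMeasurable.mul
        (continuous_const.dist continuous_id).aestronglyMeasurable)
    · rw [Real.norm_eq_abs, abs_of_nonneg (mul_nonneg (hp.nonneg s hs x w) dist_nonneg)]
      exact hle w
  refine ⟨hi, ?_⟩
  calc ∫ w, p s x w * dist x w ∂m
      ≤ ∫ w, √s * (p s x w * Real.exp (1 * (dist x w / √s))) ∂m :=
        integral_mono hi (h1.const_mul _) hle
    _ = √s * ∫ w, p s x w * Real.exp (1 * (dist x w / √s)) ∂m := integral_const_mul _ _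
    _ ≤ √s * C := mul_le_mul_of_nonneg_left h2 hss.le
    _ = C * √s := mul_comm _ _

/-- **Stage 1.** -/
theorem stage1 {o : M} {A : ℝ} (h : Env m n K o A p) (hreg : H719.IsRegular n o) {S R σ ρ₁ : ℝ}
    (hS : 0 ≤ S) (hR : 1 ≤ R) (hσ : 0 < σ) (hσ1 : σ ≤ 1) (hρ₁ : 0 < ρ₁) :
    ∃ ρ, ρ ≤ ρ₁ ∧ ∃ (u : Fin n → M →ₘ[m] ℝ) (uu : M → E n), Pre m n K o p S R σ ρ u uu := by
  have hp := h.ker
  have hcd := H448.hyp_of h.hyp
  have hcl := H448.closeSmall_of_regular h.hyp hreg
  obtain ⟨θ₀, hN⟩ := H992.nsp hcd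
  have hBE := H992.be hcd
  haveI := hN.full
  haveI := sigmaFinite_of_fin hN.fin
  have hD := hN.isDir
  have hC := hN.isGamma
  have hn : (0 : ℝ) < n := by exact_mod_cast hN.n_pos
  obtain ⟨Ct, hCt, hT⟩ := exists_tail hcd hp
  obtain ⟨Cm, hCm, hM⟩ := exists_mom hcd hp
  obtain ⟨θ, η₁, Q, L, τ, N⟩ := exists_num n (Ct := Ct) (R := R) hCm hS hσ hσ1
  obtain ⟨r₀, hr₀, hr₁, hr⟩ := exists_numR K L S R hσ hρ₁
  have hQ := N.Q_ge
  obtain ⟨ρ, φ, hρ, hρr, g1, g2, g3, g4⟩ := H757.geo_points hcl N.η_pos N.η_le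
    (by linarith : 1 ≤ Q) N.L_eq.le hr₀
  have N' := hr ρ hρ hρr
  have G : GeoD n o Q L η₁ ρ φ := ⟨g1, g2, g3, g4⟩
  have hθ := N.θ_pos
  have hθ1 := N.θ_le
  have hη := N.η_pos
  have hη1 := N.η_le
  have hL0 : 0 < L := by
    have hQ1 : 0 < Q + 1 := by linarith
    have : 0 < η₁ * L := by rw [← N.L_eq]; positivity
    exact (mul_pos_iff_of_pos_left hη).1 this
  have hL1 : 4 * (Q + 1) ^ 2 ≤ L := by rw [N.L_eq]; nlinarith
  have hrL : 0 < L * ρ := by positivity
  have ht : 0 < θ * ρ ^ 2 := by positivity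
  have hρ2 : 0 < ρ ^ 2 := by positivity
  have htρ : θ * ρ ^ 2 ≤ ρ ^ 2 := by nlinarith
  have hρ1 : ρ ^ 2 ≤ 1 := by
    have := N'.k2
    nlinarith
  -- the far points
  choose q hq0 hq using fun i : Fin n => G.far (EuclideanSpace.single i (1 : ℝ)) (by simp)
  have hq' : ∀ i, FarP o Q L η₁ ρ φ (EuclideanSpace.single i 1) (q i) := hq
  refine ⟨ρ, hρr.le.trans hr₁, fun i => (sob m).P (θ * ρ ^ 2) (Fr m (L * ρ) (q i)),
    fun z => WithLp.toLp 2 fun i => pt m p (θ * ρ ^ 2) (fr (L * ρ) (q i)) z, ?_⟩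
  have hF2 : ∀ i, MemLp (Fr m (L * ρ) (q i)) 2 m := fun i => Fr_mem2 hN hrL (q i)
  have hf2 : ∀ i, MemLp (fr (L * ρ) (q i)) 2 m := fun i =>
    (memLp_congr_ae (Fr_ae (m := m) hrL (q i))).1 (hF2 i)
  have hTI : ∀ i, (sob m).P (θ * ρ ^ 2) (Fr m (L * ρ) (q i)) ∈ (sob m).TestI := fun i =>
    H715.P_testI_pos hC hn hBE ht (hF2 i) (Fr_A hN hrL (q i)).2
  have hrep : ∀ i, ∀ᵐ x ∂m, (sob m).P (θ * ρ ^ 2) (Fr m (L * ρ) (q i)) x
      = pt m p (θ * ρ ^ 2) (fr (L * ρ) (q i)) x := fun i => by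
    filter_upwards [hp.rep _ ht _ (hF2 i)] with x hx
    rw [hx]
    exact pt_congr hp (Fr_ae (m := m) hrL (q i)) _ _
  have hexp : Real.exp (2 * |K| * (θ * ρ ^ 2)) ≤ 9 / 8 := by
    refine (Real.exp_le_exp.2 ?_).trans (N'.k5.trans (by linarith))
    have : 0 ≤ 2 * |K| * ρ ^ 2 := by positivity
    nlinarith
  have hg4 : ∀ i, ∀ᵐ z ∂m, (sob m).Γ ((sob m).P (θ * ρ ^ 2) (Fr m (L * ρ) (q i)))
      ((sob m).P (θ * ρ ^ 2) (Fr m (L * ρ) (q i))) z ≤ 4 := fun i =>
    grad_four hN hBE hp hrL ht hexp (q i)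
  have hup : ∀ c : E n, ‖c‖ = 1 → ∀ᵐ z ∂m, z ∈ ball o (R * ρ) →
      (sob m).Γ (∑ i, c i • (sob m).P (θ * ρ ^ 2) (Fr m (L * ρ) (q i)))
        (∑ i, c i • (sob m).P (θ * ρ ^ 2) (Fr m (L * ρ) (q i))) z ≤ 1 + σ := by
    intro c hc
    filter_upwards [grad_est hN hBE hp hT hCt hS (by linarith) hσ hσ1 N N' G hq' hc] with z hz hzb
    refine hz (ball_subset_ball ?_ hzb)
    nlinarith
  have hsgl : ∀ (i : Fin n) (U : Fin n → M →ₘ[m] ℝ),
      ∑ j, (EuclideanSpace.single i (1 : ℝ) : E n) j • U j = U i := by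
    intro i U
    rw [Finset.sum_eq_single i]
    · simp
    · intro j _ hj
      simp [hj]
    · intro hi
      exact absurd (Finset.mem_univ i) hi
  have hW : ∀ i, (sob m).P (θ * ρ ^ 2) (Fr m (L * ρ) (q i)) ∈ (sob m).W := fun i =>
    hD.P_mem ht (hF2 i)
  have hiso := H757.iso_dens (uu := fun z => WithLp.toLp 2 fun i => pt m p (θ * ρ ^ 2)
    (fr (L * ρ) (q i)) z) (φ := φ) (o := o) (L := L) (η₁ := η₁) (ρ := ρ) (R := R) (Q₁ := Q)
    (a := 2 * η₁ + 2 * Cm * √θ) (η := σ) hρ hη.le (by positivity) (by linarith) G.zero G.iso G.dens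
    hQ (by nlinarith) (WithLp.toLp 2 fun _ => L * ρ) ?_ N.e1 hσ1
  · exact
    { ρ_pos := hρ
      Rρ := N'.k3
      Sρ := by have := N'.k2; nlinarith
      Kρ := N'.k4
      test := hTI
      lip := by
        intro i
        obtain ⟨v, hv1, hv2⟩ := exists_lip_rep hN.s2l (hW i) (G := 2) two_pos (by
          filter_upwards [hg4 i] with z hz
          exact hz.trans (by norm_num))
        have hvL : LipschitzWith 2 v := by
          refine LipschitzWith.of_dist_le_mul fun x x' => ?_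
          rw [Real.dist_eq]
          exact hv1 x x'
        have hc1 : Continuous (pt m p (θ * ρ ^ 2) (fr (L * ρ) (q i))) := hp.contf _ ht _ (hf2 i)
        have hae : pt m p (θ * ρ ^ 2) (fr (L * ρ) (q i)) =ᵐ[m] v := by
          filter_upwards [hrep i, hv2] with x h1 h2
          rw [← h1, h2]
        have heq : pt m p (θ * ρ ^ 2) (fr (L * ρ) (q i)) = v :=
          (Continuous.ae_eq_iff_eq m hc1 hvL.continuous).1 hae
        refine ⟨2, ?_⟩
        show LipschitzWith 2 (pt m p (θ * ρ ^ 2) (fr (L * ρ) (q i)))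
        rw [heq]
        exact hvL
      rep := hrep
      grad := hg4
      lap1 := fun x hx s hs hs1 i =>
        lap1_est hN hBE hp hT hCt hS (by linarith) hσ hσ1 N N' G (by simp) (hq' i) hx hs hs1
      lap2 := fun x hx s hs hs1 i =>
        lap2_est hN hBE hp hT hCt hS (by linarith) hσ hσ1 N N' G (by simp) (hq' i) hx hs hs1
      up1 := by
        intro i
        have := hup (EuclideanSpace.single i 1) (by simp)
        rw [hsgl i] at this
        exact this
      up2 := by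
        intro i j hij
        have hpm : ∀ a : ℝ, a ^ 2 = 1 → ∀ᵐ z ∂m, z ∈ ball o (R * ρ) →
            (sob m).Γ ((sob m).P (θ * ρ ^ 2) (Fr m (L * ρ) (q i)) +
              a • (sob m).P (θ * ρ ^ 2) (Fr m (L * ρ) (q j)))
              ((sob m).P (θ * ρ ^ 2) (Fr m (L * ρ) (q i)) +
              a • (sob m).P (θ * ρ ^ 2) (Fr m (L * ρ) (q j))) z ≤ 2 * (1 + σ) := by
          intro a ha
          have hs2 : (√2)⁻¹ ^ 2 = (1 / 2 : ℝ) := by
            rw [inv_pow, Real.sq_sqrt two_pos.le]; norm_num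
          have hc : ‖(√2)⁻¹ • ((EuclideanSpace.single i (1 : ℝ) : E n) +
              a • EuclideanSpace.single j (1 : ℝ))‖ = 1 := by
            have h1 : ‖(EuclideanSpace.single i (1 : ℝ) : E n) +
                a • EuclideanSpace.single j (1 : ℝ)‖ ^ 2 = 2 := by
              have h0 : ⟪(EuclideanSpace.single i (1 : ℝ) : E n),
                  EuclideanSpace.single j (1 : ℝ)⟫_ℝ = 0 := by
                rw [EuclideanSpace.inner_single_left]
                simp [hij]
              rw [norm_add_sq_real, inner_smul_right, h0, norm_smul]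
              simp [ha]
              norm_num
            rw [norm_smul, ← Real.sqrt_sq (norm_nonneg ((EuclideanSpace.single i (1 : ℝ) : E n) +
              a • EuclideanSpace.single j (1 : ℝ))), h1]
            rw [Real.norm_of_nonneg (by positivity)]
            exact inv_mul_cancel₀ (by positivity)
          have h2 := hup _ hc
          have h3 : ∑ k, ((√2)⁻¹ • ((EuclideanSpace.single i (1 : ℝ) : E n) +
              a • EuclideanSpace.single j (1 : ℝ))) k •
                (sob m).P (θ * ρ ^ 2) (Fr m (L * ρ) (q k)) =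
              (√2)⁻¹ • ((sob m).P (θ * ρ ^ 2) (Fr m (L * ρ) (q i)) +
              a • (sob m).P (θ * ρ ^ 2) (Fr m (L * ρ) (q j))) := by
            have e1 := hsgl i fun k => (sob m).P (θ * ρ ^ 2) (Fr m (L * ρ) (q k))
            have e2 := hsgl j fun k => (sob m).P (θ * ρ ^ 2) (Fr m (L * ρ) (q k))
            rw [← e1, ← e2, Finset.smul_sum, ← Finset.sum_add_distrib, Finset.smul_sum]
            refine Finset.sum_congr rfl fun k _ => ?_
            simp only [PiLp.smul_apply, PiLp.add_apply, smul_eq_mul]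
            rw [smul_smul, ← add_smul, smul_smul]
          rw [h3] at h2
          have hwij : (sob m).P (θ * ρ ^ 2) (Fr m (L * ρ) (q i)) +
              a • (sob m).P (θ * ρ ^ 2) (Fr m (L * ρ) (q j)) ∈ (sob m).W :=
            hD.add_mem _ (hW i) _ (hD.smul_mem _ _ (hW j))
          rw [hD.smul_left _ _ hwij _ (hD.smul_mem _ _ hwij), hD.Γ_smul_right _ hwij hwij,
            smul_smul, ← sq, hs2] at h2
          filter_upwards [h2, smul_ae ((sob m).Γ ((sob m).P (θ * ρ ^ 2) (Fr m (L * ρ) (q i)) +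
              a • (sob m).P (θ * ρ ^ 2) (Fr m (L * ρ) (q j)))
              ((sob m).P (θ * ρ ^ 2) (Fr m (L * ρ) (q i)) +
              a • (sob m).P (θ * ρ ^ 2) (Fr m (L * ρ) (q j)))) (1 / 2 : ℝ)] with z z1 z2 hz
          have := z1 hz
          rw [z2] at this
          linarith
        have p1 := hpm 1 (by norm_num)
        have p2 := hpm (-1) (by norm_num)
        rw [one_smul] at p1
        rw [neg_one_smul, ← sub_eq_add_neg] at p2
        filter_upwards [p1, p2] with z z1 z2 hz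
        exact ⟨z1 hz, z2 hz⟩
      iso := hiso.1
      dens := hiso.2 }
  · intro z hz i
    have e1 := (fr_lin hρ (by linarith) hη hη1 N.L_eq G (by simp) (hq' i) hz).1
    have e2 := pt_sub_le hp hM hrL ht (htρ.trans hρ1) (q i) z
    have e3 : √(θ * ρ ^ 2) = √θ * ρ := by
      rw [Real.sqrt_mul hθ.le, Real.sqrt_sq hρ.le]
    rw [e3] at e2
    have e4 : ⟪(EuclideanSpace.single i 1 : E n), φ z⟫_ℝ = φ z i := by
      simp [EuclideanSpace.inner_single_left]
    rw [e4] at e1
    show |pt m p (θ * ρ ^ 2) (fr (L * ρ) (q i)) z - (φ z i + L * ρ)| ≤ _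
    rw [abs_le] at e1 e2 ⊢
    constructor <;> nlinarith [e1.1, e1.2, e2.1, e2.2]

end Vale.Agent.P242.H446
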